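import Vale.Agent.P131.Prob0
import Mathlib.Analysis.InnerProductSpace.l2Space
import Mathlib.Analysis.Normed.Lp.lpHolder
import Mathlib.MeasureTheory.Function.L2Space

/-! Weighted translations of a Hilbert basis indexed by `ℤ`, and measurable fields of them acting
on `L²(X; K)`. -/

namespace Vale.Agent.P131

open MeasureTheory Filter Topology
open scoped InnerProductSpace

variable {K : Type*} [NormedAddCommGroup K] [InnerProductSpace ℂ K] [CompleteSpace K]
  (b : HilbertBasis ℤ ℂ K)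

omit [CompleteSpace K] in
theorem clm_ext {A B : K →L[ℂ] K} (h : ∀ n, A (b n) = B (b n)) : A = B :=
  ContinuousLinearMap.ext_on (s := Set.range b)
    (Submodule.dense_iff_topologicalClosure_eq_top.2 b.dense_span)
    (by rintro _ ⟨n, rfl⟩; exact h n)

theorem exists_wop (c : ℤ → ℝ) (hc : ∀ n, |c n| ≤ 1) (i : ℤ) :
    ∃ A : K →L[ℂ] K, ‖A‖ ≤ 1 ∧ ∀ n, A (b n) = (c n : ℂ) • b (n + i) := by
  classical
  have ho : Orthonormal ℂ (fun n => b (n + i)) := b.orthonormal.comp _ (add_left_injective i)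
  have hr : Set.range (fun n => b (n + i)) = Set.range b :=
    (Equiv.addRight i).surjective.range_comp b
  let b' : HilbertBasis ℤ ℂ K := HilbertBasis.mk ho (by rw [hr, b.dense_span])
  have hb' : ∀ n, b' n = b (n + i) := fun n => congrFun (HilbertBasis.coe_mk ho _) n
  have hT : ∀ n, ‖(c n : ℂ) • ContinuousLinearMap.id ℂ ℂ‖ ≤ 1 := fun n => by
    rw [norm_smul, ContinuousLinearMap.norm_id, Complex.norm_real, mul_one]; exact hc n
  let D := lp.mapCLM (E := fun _ : ℤ => ℂ) (F := fun _ : ℤ => ℂ) 2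
    (fun n => (c n : ℂ) • ContinuousLinearMap.id ℂ ℂ) zero_le_one hT
  have hD : ‖D‖ ≤ 1 := lp.norm_mapCLM_le _ _ _ _
  refine ⟨(b'.repr.symm.toContinuousLinearEquiv : _ →L[ℂ] K) ∘L D ∘L
    (b.repr.toContinuousLinearEquiv : K →L[ℂ] _), ?_, fun n => ?_⟩
  · refine ContinuousLinearMap.opNorm_le_bound _ zero_le_one fun v => ?_
    show ‖b'.repr.symm (D (b.repr v))‖ ≤ _
    rw [LinearIsometryEquiv.norm_map, ← b.repr.norm_map v]
    exact D.le_of_opNorm_le hD _
  · show b'.repr.symm (D (b.repr (b n))) = _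
    have : D (b.repr (b n)) = (c n : ℂ) • lp.single 2 n 1 := by
      rw [b.repr_self]
      ext k
      rw [lp.coeFn_smul, Pi.smul_apply]
      by_cases hk : k = n
      · subst hk; simp [D]
      · simp [D, lp.single_apply, Pi.single_eq_of_ne hk]
    rw [this, map_smul, b'.repr_symm_single, hb']

open Classical in
/-- the operator sending `b n` to `c n • b (n + i)` -/
noncomputable def wop (c : ℤ → ℝ) (i : ℤ) : K →L[ℂ] K :=
  if h : ∀ n, |c n| ≤ 1 then Classical.choose (exists_wop b c h i) else 0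

theorem norm_wop (c : ℤ → ℝ) (i : ℤ) : ‖wop b c i‖ ≤ 1 := by
  unfold wop
  split_ifs with h
  · exact (Classical.choose_spec (exists_wop b c h i)).1
  · simp

theorem norm_wop_apply (c : ℤ → ℝ) (i : ℤ) (v : K) : ‖wop b c i v‖ ≤ ‖v‖ := by
  simpa using (wop b c i).le_of_opNorm_le (norm_wop b c i) v

theorem wop_basis {c : ℤ → ℝ} (hc : ∀ n, |c n| ≤ 1) (i n : ℤ) :
    wop b c i (b n) = (c n : ℂ) • b (n + i) := by
  unfold wop
  rw [dif_pos hc]
  exact (Classical.choose_spec (exists_wop b c hc i)).2 n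

theorem aesm_wop {c : X → ℤ → ℝ} (hm : ∀ n, Measurable fun x => c x n) (hc : ∀ x n, |c x n| ≤ 1)
    (i : ℤ) {f : X → K} (hf : AEStronglyMeasurable f μ) :
    AEStronglyMeasurable (fun x => wop b (c x) i (f x)) μ := by
  refine aestronglyMeasurable_of_tendsto_ae (atTop : Filter (Finset ℤ))
    (f := fun s x => ∑ n ∈ s, ⟪b n, f x⟫_ℂ • ((c x n : ℂ) • b (n + i))) (fun s => ?_)
    (Eventually.of_forall fun x => ?_)
  · refine Finset.aestronglyMeasurable_fun_sum _ fun n _ => ?_
    exact (aestronglyMeasurable_const.inner hf).smul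
      ((Complex.measurable_ofReal.comp (hm n)).aestronglyMeasurable.smul_const _)
  · have := (b.hasSum_repr (f x)).mapL (wop b (c x) i)
    simp only [map_smul, wop_basis b (hc x), b.repr_apply_apply] at this
    exact this

theorem exists_op {c : X → ℤ → ℝ} (hm : ∀ n, Measurable fun x => c x n) (hc : ∀ x n, |c x n| ≤ 1)
    (i : ℤ) {s : X → X} (hs : MeasurePreserving s μ μ) :
    ∃ A : Lp K 2 μ →L[ℂ] Lp K 2 μ, ∀ f : Lp K 2 μ, A f =ᵐ[μ] fun x => wop b (c x) i (f (s x)) := by
  have mem : ∀ f : Lp K 2 μ, MemLp (fun x => wop b (c x) i (f x)) 2 μ := fun f =>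
    (Lp.memLp f).of_le (aesm_wop b hm hc i (Lp.aestronglyMeasurable f))
      (Eventually.of_forall fun x => norm_wop_apply b _ _ _)
  let L : Lp K 2 μ →ₗ[ℂ] Lp K 2 μ :=
    { toFun := fun f => (mem f).toLp _
      map_add' := fun f g => by
        refine Lp.ext ?_
        filter_upwards [(mem (f + g)).coeFn_toLp, (mem f).coeFn_toLp, (mem g).coeFn_toLp,
          Lp.coeFn_add f g, Lp.coeFn_add ((mem f).toLp _) ((mem g).toLp _)] with x h1 h2 h3 h4 h5
        rw [h1, h5, Pi.add_apply, h2, h3, h4, Pi.add_apply, map_add]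
      map_smul' := fun a f => by
        refine Lp.ext ?_
        filter_upwards [(mem (a • f)).coeFn_toLp, (mem f).coeFn_toLp,
          Lp.coeFn_smul a f, Lp.coeFn_smul a ((mem f).toLp _)] with x h1 h2 h4 h5
        rw [h1, RingHom.id_apply, h5, Pi.smul_apply, h2, h4, Pi.smul_apply, map_smul] }
  have hL : ∀ f, ‖L f‖ ≤ 1 * ‖f‖ := fun f => by
    rw [one_mul]
    refine Lp.norm_le_norm_of_ae_le ?_
    filter_upwards [(mem f).coeFn_toLp] with x h1
    show ‖(mem f).toLp _ x‖ ≤ _
    rw [h1]; exact norm_wop_apply b _ _ _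
  refine ⟨L.mkContinuous 1 hL ∘L (Lp.compMeasurePreservingₗᵢ ℂ s hs).toContinuousLinearMap,
    fun f => ?_⟩
  filter_upwards [(mem (Lp.compMeasurePreserving s hs f)).coeFn_toLp,
    Lp.coeFn_compMeasurePreserving f hs] with x h1 h2
  exact h1.trans (by rw [h2]; rfl)

end Vale.Agent.P131
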