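import Vale.Agent.P131.Gen
import Vale.Agent.P131.Ops

/-! The deterministic step in one fibre, and the choice of the weights. -/

namespace Vale.Agent.P131

open Finset
open scoped InnerProductSpace

variable {K : Type*} [NormedAddCommGroup K] [InnerProductSpace ℂ K] [CompleteSpace K]
  (b : HilbertBasis ℤ ℂ K)

/-- the conclusion of the deterministic step -/
def Det (β : ℝ) (n : ℕ) (γ ε : ℝ) : Prop :=
  ∀ (Q : K →L[ℂ] K) (w : ℤ → ℝ) (c₁ c₂ : ℝ) (v : K), (∀ u, ‖Q u‖ ≤ ‖u‖) → (∀ k, |w k| ≤ 1) →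
    (∀ u, ‖Q (wop b w 1 u)‖ ≤ ‖Q u‖) → (∀ k : ℤ, 1 ≤ k → k < n → β ≤ w k) → |w n| ≤ ε →
    β ≤ c₁ → c₁ ≤ 1 → 0 ≤ c₂ → c₂ ≤ ε * β → ‖v‖ ≤ 1 →
    Q (wop b (fun k => if 1 ≤ k ∧ k ≤ n then c₁ else c₂) 0 v) = 0 →
    ∀ i i' : ℤ, 1 ≤ i → i ≤ i' → i' ≤ n → γ ≤ ‖⟪b i, v⟫_ℂ‖ → ‖Q (b i')‖ ≤ γ

theorem det (β : ℝ) (hβ : 0 < β) (n : ℕ) (γ : ℝ) (hγ : 0 < γ) :
    ∃ ε : ℝ, 0 < ε ∧ ε ≤ 1 ∧ Det b β n γ ε := by
  classical
  obtain ⟨ε, hε, H⟩ := gen (V := K) β hβ n γ hγ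
  refine ⟨min ε 1, by positivity, min_le_right _ _, ?_⟩
  intro Q w c₁ c₂ v hQ hw hT hβw hcut hc1 hc1' hc2 hc2' hv hD i i' hi hii hi' hγi
  have hb1 : ∀ k, ‖b k‖ = 1 := b.orthonormal.1
  have m1 : min ε 1 ≤ ε := min_le_left _ _
  have m2 : min ε 1 ≤ 1 := min_le_right _ _
  have m3 : 0 < min ε 1 := by positivity
  have hc2'' : c₂ ≤ 1 := hc2'.trans (mul_le_one₀ m2 hβ.le (hc1.trans hc1'))
  let φ : Seminorm ℂ K := (normSeminorm ℂ K).comp (Q : K →ₗ[ℂ] K)
  have hφ : ∀ u, φ u = ‖Q u‖ := fun u => rfl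
  let P : K →L[ℂ] K := ∑ j ∈ range n, (innerSL ℂ (b (n - j))).smulRight (b (n - j))
  have hP : P v = ∑ j ∈ range n, ⟪b (n - j), v⟫_ℂ • b (n - j) := by
    simp [P]
  have hPb : ∀ k, P (b k) = if 1 ≤ k ∧ k ≤ n then b k else 0 := by
    intro k
    have ho := orthonormal_iff_ite.1 b.orthonormal
    simp only [P, _root_.sum_apply, ContinuousLinearMap.smulRight_apply,
      innerSL_apply_apply, ho]
    split_ifs with h
    · rw [sum_eq_single (n - k).toNat]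
      · have : (n : ℤ) - ((n - k).toNat : ℕ) = k := by omega
        rw [this, if_pos rfl, one_smul]
      · intro j _ hj
        rw [if_neg (by omega), zero_smul]
      · intro hj
        exact (hj (mem_range.2 (by omega))).elim
    · refine sum_eq_zero fun j hj => ?_
      have := mem_range.1 hj
      rw [if_neg (by omega), zero_smul]
  have hdec : (c₁ : ℂ) • P = wop b (fun k => if 1 ≤ k ∧ k ≤ n then c₁ else c₂) 0 -
      (c₂ : ℂ) • wop b (fun k => if 1 ≤ k ∧ k ≤ n then 0 else 1) 0 := by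
    refine clm_ext b fun k => ?_
    rw [_root_.sub_apply, _root_.smul_apply,
      _root_.smul_apply, hPb, wop_basis, wop_basis, add_zero]
    · split_ifs <;> simp
    · intro k; split_ifs <;> simp
    · intro k
      split_ifs
      · rw [abs_of_nonneg (by linarith)]; exact hc1'
      · rw [abs_of_nonneg hc2]; exact hc2''
  have hS : φ (∑ j ∈ range n, ⟪b (n - j), v⟫_ℂ • b (n - j)) ≤ ε := by
    rw [← hP, hφ]
    have h1 : (c₁ : ℂ) • Q (P v) =
        -((c₂ : ℂ) • Q (wop b (fun k => if 1 ≤ k ∧ k ≤ n then 0 else 1) 0 v)) := by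
      rw [← map_smul, ← _root_.smul_apply, hdec, _root_.sub_apply,
        map_sub, hD, zero_sub, _root_.smul_apply, map_smul]
    have h2 := congrArg norm h1
    rw [norm_neg, norm_smul, norm_smul, Complex.norm_real, Complex.norm_real,
      Real.norm_of_nonneg (by linarith), Real.norm_of_nonneg hc2] at h2
    have h3 : ‖Q (wop b (fun k => if 1 ≤ k ∧ k ≤ n then 0 else 1) 0 v)‖ ≤ 1 :=
      (hQ _).trans ((norm_wop_apply b _ _ _).trans hv)
    have h4 : β * ‖Q (P v)‖ ≤ β * ε := by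
      have := mul_le_mul_of_nonneg_right hc1 (norm_nonneg (Q (P v)))
      have := mul_le_of_le_one_right hc2 h3
      nlinarith
    exact le_of_mul_le_mul_left h4 hβ
  have := H φ (wop b w 1 : K →L[ℂ] K) (fun j => b (n - j)) (fun j => w (n - (j + 1 : ℕ)))
    (fun j => ⟪b (n - j), v⟫_ℂ) hT (fun j => (hQ _).trans (hb1 _).le)
    (fun j _ => by
      show wop b w 1 _ = _
      rw [wop_basis b hw]; congr 2; push_cast; ring)
    (fun j hj => ⟨hβw _ (by omega) (by omega), (le_abs_self _).trans (hw _)⟩)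
    (by
      show ‖Q (wop b w 1 _)‖ ≤ _
      refine (hQ _).trans ?_
      rw [wop_basis b hw, norm_smul, hb1, mul_one, Complex.norm_real]
      simpa using hcut.trans m1)
    (fun j _ => (norm_inner_le_norm _ _).trans (by rw [hb1, one_mul]; exact hv))
    hS (n - i).toNat (by omega)
    (by
      have : (n : ℤ) - ((n - i).toNat : ℕ) = i := by omega
      simp only [this]; exact hγi)
    (n - i').toNat (by omega)
  have e : (n : ℤ) - ((n - i').toNat : ℕ) = i' := by omega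
  simp only [e] at this
  exact this

theorem exists_delta : ∃ δ : ℕ → ℝ, (∀ n, 0 < δ n) ∧ (∀ n, δ n ≤ 1) ∧ Antitone δ ∧
    ∀ m, ∃ ε, Det b (δ m) (2 ^ m) ((1 / 2) ^ m) ε ∧ δ (m + 1) ≤ ε * δ m ∧ δ (m + 1) ≤ ε := by
  have h : ∀ (β : ℝ) (m : ℕ), ∃ ε : ℝ, 0 < ε ∧ ε ≤ 1 ∧
      (0 < β → Det b β (2 ^ m) ((1 / 2) ^ m) ε) := by
    intro β m
    by_cases hβ : 0 < β
    · obtain ⟨ε, h1, h2, h3⟩ := det b β hβ (2 ^ m) ((1 / 2) ^ m) (by positivity)
      exact ⟨ε, h1, h2, fun _ => h3⟩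
    · exact ⟨1, one_pos, le_rfl, fun h => (hβ h).elim⟩
  choose ε h1 h2 h3 using h
  let δ : ℕ → ℝ := fun n => Nat.rec 1 (fun m d => ε d m * d) n
  have hs : ∀ m, δ (m + 1) = ε (δ m) m * δ m := fun m => rfl
  have hpos : ∀ n, 0 < δ n := by
    intro n
    induction n with
    | zero => exact one_pos
    | succ n ih => rw [hs]; exact mul_pos (h1 _ _) ih
  have hanti : Antitone δ := antitone_nat_of_succ_le fun n => by
    rw [hs]; exact mul_le_of_le_one_left (hpos n).le (h2 _ _)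
  have hle : ∀ n, δ n ≤ 1 := fun n => hanti (Nat.zero_le n)
  refine ⟨δ, hpos, hle, hanti, fun m => ⟨ε (δ m) m, h3 _ _ (hpos m), (hs m).le, ?_⟩⟩
  rw [hs]; exact mul_le_of_le_one_right (h1 _ _).le (hle m)

end Vale.Agent.P131
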