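import Mathlib

/-! Weight sequences of bilateral weighted shifts with rapidly growing jumps, and the key
nonvanishing lemma for the pairing between two such weighted spaces. -/

namespace Vale.Agent.P131

open Finset

/-- A truncated product of two bounded power series with large low coefficients is not small. -/
theorem exists_delta (M : ℕ) (B c : ℝ) (hc : 0 < c) : ∃ δ > 0, ∀ F H : ℕ → ℂ,
    (∀ n, ‖F n‖ ≤ B) → (∀ n, ‖H n‖ ≤ B) → ∀ p q, p + q < M → c ≤ ‖F p‖ → c ≤ ‖H q‖ →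
      δ ≤ ∑ t ∈ range M, ‖∑ j ∈ range (t + 1), F j * H (t - j)‖ := by
  classical
  let K₀ : Set (ℕ → ℂ) := Set.pi Set.univ fun _ => Metric.closedBall 0 B
  have hK₀ : IsCompact K₀ := isCompact_univ_pi fun _ => isCompact_closedBall 0 B
  let C : Set ((ℕ → ℂ) × (ℕ → ℂ)) :=
    ⋃ z ∈ {z : ℕ × ℕ | z.1 + z.2 < M}, {w | c ≤ ‖w.1 z.1‖ ∧ c ≤ ‖w.2 z.2‖}
  have hfin : {z : ℕ × ℕ | z.1 + z.2 < M}.Finite := by
    refine ((Set.finite_lt_nat M).prod (Set.finite_lt_nat M)).subset ?_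
    rintro ⟨a, b⟩ h
    simp only [Set.mem_ofPred_eq, Set.mem_prod] at h ⊢
    omega
  have hC : IsClosed C := by
    refine hfin.isClosed_biUnion fun z _ => IsClosed.inter ?_ ?_
    · exact isClosed_le (f := fun _ => c) (g := fun w : (ℕ → ℂ) × (ℕ → ℂ) => ‖w.1 z.1‖)
        continuous_const (by fun_prop)
    · exact isClosed_le (f := fun _ => c) (g := fun w : (ℕ → ℂ) × (ℕ → ℂ) => ‖w.2 z.2‖)
        continuous_const (by fun_prop)
  have hK : IsCompact ((K₀ ×ˢ K₀) ∩ C) := (hK₀.prod hK₀).inter_right hC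
  let Φ : (ℕ → ℂ) × (ℕ → ℂ) → ℝ :=
    fun w => ∑ t ∈ range M, ‖∑ j ∈ range (t + 1), w.1 j * w.2 (t - j)‖
  have hΦ : Continuous Φ := by fun_prop
  have hpos : ∀ w ∈ (K₀ ×ˢ K₀) ∩ C, 0 < Φ w := by
    rintro ⟨F, H⟩ ⟨-, hw⟩
    simp only [C, Set.mem_iUnion, Set.mem_ofPred_eq] at hw
    obtain ⟨⟨p, q⟩, hpq, hp, hq⟩ := hw
    have eF : ∃ n, F n ≠ 0 := ⟨p, norm_pos_iff.1 (hc.trans_le hp)⟩
    have eH : ∃ n, H n ≠ 0 := ⟨q, norm_pos_iff.1 (hc.trans_le hq)⟩
    have h1 : Nat.find eF ≤ p := Nat.find_min' eF (norm_pos_iff.1 (hc.trans_le hp))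
    have h2 : Nat.find eH ≤ q := Nat.find_min' eH (norm_pos_iff.1 (hc.trans_le hq))
    refine Finset.sum_pos' (fun _ _ => norm_nonneg _)
      ⟨Nat.find eF + Nat.find eH, mem_range.2 (by simp only at hpq; omega), ?_⟩
    rw [norm_pos_iff, Finset.sum_eq_single (Nat.find eF)]
    · simp only [Nat.add_sub_cancel_left]
      exact mul_ne_zero (Nat.find_spec eF) (Nat.find_spec eH)
    · intro j hj hne
      rcases lt_or_gt_of_ne hne with h | h
      · have : F j = 0 := by simpa using Nat.find_min eF h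
        simp [this]
      · have : H (Nat.find eF + Nat.find eH - j) = 0 := by
          have := mem_range.1 hj
          simpa using Nat.find_min eH (show Nat.find eF + Nat.find eH - j < Nat.find eH by omega)
        simp [this]
    · intro h
      exact absurd (mem_range.2 (by omega)) h
  obtain ⟨δ, hδ, hle⟩ := hK.exists_forall_le' hΦ.continuousOn hpos
  refine ⟨δ, hδ, fun F H hF hH p q hpq hp hq => hle (F, H) ⟨⟨?_, ?_⟩, ?_⟩⟩
  · exact fun n _ => mem_closedBall_zero_iff.2 (hF n)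
  · exact fun n _ => mem_closedBall_zero_iff.2 (hH n)
  · simp only [C, Set.mem_iUnion, Set.mem_ofPred_eq]
    exact ⟨(p, q), hpq, hp, hq⟩

theorem exists_gamma (i : ℕ) (Λ : ℝ) : ∃ γ : ℝ, 0 ≤ γ ∧ ∀ F H : ℕ → ℂ,
    (∀ n, ‖F n‖ ≤ (i + 1) * Real.exp Λ) → (∀ n, ‖H n‖ ≤ (i + 1) * Real.exp Λ) →
    ∀ p q, p + q < 2 * 4 ^ (i + 1) → 1 / ((i : ℝ) + 1) ≤ ‖F p‖ → 1 / ((i : ℝ) + 1) ≤ ‖H q‖ →
      ((2 * 4 ^ (i + 1) : ℕ) : ℝ) * ((i + 1) * Real.exp (2 * Λ - γ)) <
        ∑ t ∈ range (2 * 4 ^ (i + 1)), ‖∑ j ∈ range (t + 1), F j * H (t - j)‖ := by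
  obtain ⟨δ, hδ, h⟩ := exists_delta (2 * 4 ^ (i + 1)) ((i + 1) * Real.exp Λ) (1 / ((i : ℝ) + 1))
    (by positivity)
  have ht : Filter.Tendsto
      (fun γ : ℝ => ((2 * 4 ^ (i + 1) : ℕ) : ℝ) * ((i + 1) * Real.exp (2 * Λ - γ)))
      Filter.atTop (nhds (((2 * 4 ^ (i + 1) : ℕ) : ℝ) * ((i + 1) * 0))) := by
    refine Filter.Tendsto.const_mul _ (Filter.Tendsto.const_mul _ ?_)
    refine Real.tendsto_exp_atBot.comp ?_
    exact Filter.tendsto_atBot_add_const_left _ _ Filter.tendsto_neg_atTop_atBot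
  rw [mul_zero, mul_zero] at ht
  obtain ⟨γ, h1, h2⟩ := ((ht.eventually (gt_mem_nhds hδ)).and (Filter.eventually_ge_atTop 0)).exists
  exact ⟨γ, h2, fun F H hF hH p q hpq hp hq => h1.trans_le (h F H hF hH p q hpq hp hq)⟩

/-- total size of the jumps below level `i` -/
noncomputable def Lam : ℕ → ℝ
  | 0 => 0
  | i + 1 => Lam i + Classical.choose (exists_gamma i (Lam i)) * 2 ^ i

/-- unit of the jumps at level `i` -/
noncomputable def gam (i : ℕ) : ℝ := Classical.choose (exists_gamma i (Lam i))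

theorem gam_nonneg (i : ℕ) : 0 ≤ gam i := (Classical.choose_spec (exists_gamma i (Lam i))).1

theorem Lam_eq (i : ℕ) : Lam i = ∑ l ∈ range i, gam l * 2 ^ l := by
  induction i with
  | zero => rfl
  | succ i ih => rw [sum_range_succ, ← ih]; rfl

/-- position of the right jump -/
def up (i s : ℕ) : ℤ := 4 ^ (i + 1) - 2 ^ i * s

/-- position of the left jump -/
def lo (i s : ℕ) : ℤ := -4 ^ (i + 1) - 2 ^ i * s

/-- the step function of level `i` -/
noncomputable def lev (i s : ℕ) (n : ℤ) : ℝ :=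
  if up i s ≤ n then s else if n < lo i s then s - 2 ^ i else 0

/-- logarithm of the inverse weight sequence -/
noncomputable def psi (s : ℕ → ℕ) (n : ℤ) : ℝ := ∑' l, gam l * lev l (s l) n

theorem four_pow (i : ℕ) : (4 : ℤ) ^ i = 2 ^ i * 2 ^ i := by
  rw [← mul_pow]; norm_num

theorem shift_bd {i s : ℕ} (h : s < 2 ^ i) : (0 : ℤ) ≤ 2 ^ i * s ∧ (2 : ℤ) ^ i * s ≤ 4 ^ i := by
  have h' : (s : ℤ) ≤ 2 ^ i := by exact_mod_cast h.le
  refine ⟨by positivity, ?_⟩
  rw [four_pow]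
  exact mul_le_mul_of_nonneg_left h' (by positivity)

theorem lev_eq_zero {i s : ℕ} {n : ℤ} (h1 : lo i s ≤ n) (h2 : n < up i s) : lev i s n = 0 := by
  rw [lev, if_neg (not_le.2 h2), if_neg (not_lt.2 h1)]

theorem lev_eq_zero_of_abs {i s : ℕ} (h : s < 2 ^ i) {n : ℤ} (hn : |n| ≤ 2 * 4 ^ i) :
    lev i s n = 0 := by
  obtain ⟨a, b⟩ := shift_bd h
  have c : (0 : ℤ) < 4 ^ i := by positivity
  rw [abs_le] at hn
  apply lev_eq_zero
  · rw [lo, pow_succ]; omega
  · rw [up, pow_succ]; omega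

theorem natAbs_le_pow {i : ℕ} {n : ℤ} (h : n.natAbs ≤ i) : |n| ≤ 2 * 4 ^ i := by
  have h1 : i < 4 ^ i := Nat.lt_pow_self (by norm_num)
  have h2 : (i : ℤ) < 4 ^ i := by exact_mod_cast h1
  have h3 : |n| ≤ i := by rw [← Int.natCast_natAbs]; exact_mod_cast h
  omega

theorem psi_eq {s : ℕ → ℕ} (hs : ∀ l, s l < 2 ^ l) {n : ℤ} {N : ℕ} (hN : n.natAbs ≤ N) :
    psi s n = ∑ l ∈ range N, gam l * lev l (s l) n := by
  refine tsum_eq_sum fun l hl => ?_
  rw [lev_eq_zero_of_abs (hs l) (natAbs_le_pow (hN.trans (by simpa using hl))), mul_zero]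

theorem lev_le (i s : ℕ) (n : ℤ) : lev i s n ≤ s := by
  have : (0 : ℝ) < 2 ^ i := by positivity
  have : (0 : ℝ) ≤ s := by positivity
  unfold lev
  split_ifs <;> linarith

theorem le_lev {i s : ℕ} (h : s < 2 ^ i) (n : ℤ) : s - 2 ^ i ≤ lev i s n := by
  have : (0 : ℝ) < 2 ^ i := by positivity
  have : (s : ℝ) < 2 ^ i := by exact_mod_cast h
  unfold lev
  split_ifs <;> linarith

theorem abs_lev_le {i s : ℕ} (h : s < 2 ^ i) (n : ℤ) : |lev i s n| ≤ 2 ^ i := by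
  have h1 := lev_le i s n
  have h2 := le_lev h n
  have : (s : ℝ) < 2 ^ i := by exact_mod_cast h
  have : (0 : ℝ) ≤ s := by positivity
  rw [abs_le]
  constructor <;> linarith

theorem lo_lt_up (i s : ℕ) : lo i s < up i s := by
  have c : (0 : ℤ) < 4 ^ (i + 1) := by positivity
  rw [lo, up]; omega

theorem lev_mono {i s : ℕ} (h : s < 2 ^ i) {n n' : ℤ} (hn : n ≤ n') : lev i s n ≤ lev i s n' := by
  have : (s : ℝ) < 2 ^ i := by exact_mod_cast h
  have : (0 : ℝ) ≤ s := by positivity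
  have := lo_lt_up i s
  unfold lev
  split_ifs <;> linarith

theorem psi_mono {s : ℕ → ℕ} (hs : ∀ l, s l < 2 ^ l) {n n' : ℤ} (hn : n ≤ n') :
    psi s n ≤ psi s n' := by
  rw [psi_eq hs (le_max_left n.natAbs n'.natAbs), psi_eq hs (le_max_right n.natAbs n'.natAbs)]
  exact sum_le_sum fun l _ => mul_le_mul_of_nonneg_left (lev_mono (hs l) hn) (gam_nonneg l)

theorem up_succ (i s : ℕ) : up i (s + 1) = up i s - 2 ^ i := by
  rw [up, up]; push_cast; ring

theorem lo_succ (i s : ℕ) : lo i (s + 1) = lo i s - 2 ^ i := by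
  rw [lo, lo]; push_cast; ring

theorem lev_diff_nonpos {i s : ℕ} (h : s + 1 < 2 ^ i) {n n' : ℤ} (hn : n - 2 ^ i ≤ n') :
    lev i s n - lev i (s + 1) n' ≤ 0 := by
  have : ((s + 1 : ℕ) : ℝ) < 2 ^ i := by exact_mod_cast h
  have : (0 : ℝ) ≤ s := by positivity
  have := lo_lt_up i s
  have := up_succ i s
  have := lo_succ i s
  unfold lev
  push_cast at *
  split_ifs <;> linarith

theorem lev_diff_le {i s : ℕ} (h : s + 1 < 2 ^ i) {n n' : ℤ}
    (hn : n < lo i s ∨ up i (s + 1) ≤ n') : lev i s n - lev i (s + 1) n' ≤ -1 := by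
  have h1 := lev_le i s n
  have h2 := le_lev h n'
  have := lo_lt_up i s
  rcases hn with hn | hn
  · have : lev i s n = s - 2 ^ i := by rw [lev, if_neg (by omega), if_pos hn]
    push_cast at h2
    linarith
  · have : lev i (s + 1) n' = (s + 1 : ℕ) := by rw [lev, if_pos hn]
    push_cast at this
    linarith

theorem psi_diff {s s' : ℕ → ℕ} (hs : ∀ l, s l < 2 ^ l) (hs' : ∀ l, s' l < 2 ^ l) {i : ℕ}
    (hi : ∀ l, i ≤ l → s' l = s l + 1) {n n' : ℤ} (hn : n - 2 ^ i ≤ n') :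
    psi s n - psi s' n' ≤ 2 * Lam i + gam i * (lev i (s i) n - lev i (s' i) n') := by
  obtain ⟨N, h1, h2, h3⟩ : ∃ N, n.natAbs ≤ N ∧ n'.natAbs ≤ N ∧ i + 1 ≤ N :=
    ⟨n.natAbs + n'.natAbs + i + 1, by omega, by omega, by omega⟩
  rw [psi_eq hs h1, psi_eq hs' h2, ← sum_sub_distrib, ← sum_range_add_sum_Ico _ h3,
    sum_range_succ, Lam_eq, mul_sum]
  have a : ∑ l ∈ range i, (gam l * lev l (s l) n - gam l * lev l (s' l) n') ≤
      ∑ l ∈ range i, 2 * (gam l * 2 ^ l) := by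
    refine sum_le_sum fun l _ => ?_
    have u := abs_le.1 (abs_lev_le (hs l) n)
    have v := abs_le.1 (abs_lev_le (hs' l) n')
    have := mul_le_mul_of_nonneg_left
      (show lev l (s l) n - lev l (s' l) n' ≤ 2 * 2 ^ l by linarith [u.2, v.1]) (gam_nonneg l)
    linarith
  have b : ∑ l ∈ Ico (i + 1) N, (gam l * lev l (s l) n - gam l * lev l (s' l) n') ≤ 0 := by
    refine sum_nonpos fun l hl => ?_
    have hl' : i ≤ l := by have := (mem_Ico.1 hl).1; omega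
    have e := hi l hl'
    have hp : (2 : ℤ) ^ i ≤ 2 ^ l := pow_le_pow_right₀ (by norm_num) hl'
    have := lev_diff_nonpos (i := l) (s := s l) (e ▸ hs' l) (n := n) (n' := n') (by omega)
    rw [← e] at this
    have := mul_nonpos_of_nonneg_of_nonpos (gam_nonneg l) this
    linarith
  linarith

theorem abs_psi_le {s : ℕ → ℕ} (hs : ∀ l, s l < 2 ^ l) {i : ℕ} {n : ℤ}
    (h1 : lo i (s i) ≤ n) (h2 : n < up i (s i)) : |psi s n| ≤ Lam i := by
  have e : psi s n = ∑ l ∈ range i, gam l * lev l (s l) n := by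
    refine tsum_eq_sum fun l hl => ?_
    have hl' : i ≤ l := by simpa using hl
    rcases hl'.eq_or_lt with rfl | hlt
    · rw [lev_eq_zero h1 h2, mul_zero]
    · rw [lev_eq_zero_of_abs (hs l), mul_zero]
      obtain ⟨a, b⟩ := shift_bd (hs i)
      have hp : (4 : ℤ) ^ (i + 1) ≤ 4 ^ l := pow_le_pow_right₀ (by norm_num) hlt
      have c : (0 : ℤ) < 4 ^ i := by positivity
      rw [lo] at h1
      rw [up] at h2
      rw [pow_succ] at h1 h2 hp
      rw [abs_le]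
      constructor <;> omega
  rw [e, Lam_eq]
  refine (abs_sum_le_sum_abs _ _).trans (sum_le_sum fun l _ => ?_)
  rw [abs_mul, abs_of_nonneg (gam_nonneg l)]
  exact mul_le_mul_of_nonneg_left (abs_lev_le (hs l) n) (gam_nonneg l)

/-- every power of the shift, negative ones included, is bounded between the two weighted spaces -/
theorem psi_bdd {s s' : ℕ → ℕ} (hs : ∀ l, s l < 2 ^ l) (hs' : ∀ l, s' l < 2 ^ l) {i₀ : ℕ}
    (hi : ∀ l, i₀ ≤ l → s' l = s l + 1) (k : ℤ) :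
    ∃ C : ℕ, ∀ n, psi s (n - k) - psi s' n ≤ C := by
  let i := i₀ + k.natAbs
  obtain ⟨C, hC⟩ := exists_nat_ge (2 * Lam i)
  refine ⟨C, fun n => ?_⟩
  have h1 : i < 2 ^ i := Nat.lt_pow_self (by norm_num)
  have h2 : (i : ℤ) < 2 ^ i := by exact_mod_cast h1
  have h3 : n - k - 2 ^ i ≤ n := by omega
  have h4 := psi_diff hs hs' (i := i) (fun l hl => hi l (by omega)) h3
  have e := hi i (by omega)
  have h5 := lev_diff_nonpos (i := i) (s := s i) (e ▸ hs' i) h3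
  rw [← e] at h5
  have := mul_nonpos_of_nonneg_of_nonpos (gam_nonneg i) h5
  linarith

theorem tail_bound {T g h : ℤ → ℂ} {S : Finset ℤ} {E A : ℝ} (hE : 0 ≤ E)
    (hg : Summable fun n => ‖g n‖ ^ 2) (hh : Summable fun n => ‖h n‖ ^ 2)
    (hgA : ∑' n, ‖g n‖ ^ 2 ≤ A) (hhA : ∑' n, ‖h n‖ ^ 2 ≤ A)
    (hT : ∀ n, n ∉ S → ‖T n‖ ≤ E * (‖h n‖ * ‖g n‖)) (h0 : ∑' n, T n = 0) :
    ‖∑ n ∈ S, T n‖ ≤ E * A := by
  classical
  let r : ℤ → ℂ := fun n => if n ∈ S then 0 else T n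
  have hbd : HasSum (fun n => E / 2 * (‖h n‖ ^ 2 + ‖g n‖ ^ 2))
      (E / 2 * (∑' n, ‖h n‖ ^ 2 + ∑' n, ‖g n‖ ^ 2)) := (hh.hasSum.add hg.hasSum).mul_left _
  have hr : ∀ n, ‖r n‖ ≤ E / 2 * (‖h n‖ ^ 2 + ‖g n‖ ^ 2) := by
    intro n
    simp only [r]
    split_ifs with hn
    · rw [norm_zero]; positivity
    · have h5 : ‖h n‖ * ‖g n‖ ≤ (‖h n‖ ^ 2 + ‖g n‖ ^ 2) / 2 := by
        nlinarith [sq_nonneg (‖h n‖ - ‖g n‖)]
      have := mul_le_mul_of_nonneg_left h5 hE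
      linarith [hT n hn]
  have hrs : Summable r := Summable.of_norm_bounded hbd.summable hr
  have hfin : HasSum (fun n => if n ∈ S then T n else 0) (∑ n ∈ S, T n) := by
    have := hasSum_sum_of_ne_finset_zero (f := fun n => if n ∈ S then T n else 0) (s := S)
      (L := SummationFilter.unconditional ℤ) (fun n hn => if_neg hn)
    rwa [sum_congr rfl fun n hn => if_pos hn] at this
  have htot : HasSum T (∑' n, r n + ∑ n ∈ S, T n) := by
    convert hrs.hasSum.add hfin using 2 with n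
    simp only [r]
    split_ifs <;> simp
  have hz : ∑' n, r n + ∑ n ∈ S, T n = 0 := htot.tsum_eq.symm.trans h0
  have hn := tsum_of_norm_bounded hbd hr
  rw [eq_neg_of_add_eq_zero_right hz, norm_neg]
  refine hn.trans ?_
  have := mul_le_mul_of_nonneg_left (add_le_add hhA hgA) hE
  linarith

theorem coeff_bound {s s' : ℕ → ℕ} (hs : ∀ l, s l < 2 ^ l) (hs' : ∀ l, s' l < 2 ^ l) {i : ℕ}
    (hi : ∀ l, i ≤ l → s' l = s l + 1) {g h : ℤ → ℂ} (hg : Summable fun n => ‖g n‖ ^ 2)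
    (hh : Summable fun n => ‖h n‖ ^ 2) {A : ℝ}
    (hgA : ∑' n, ‖g n‖ ^ 2 ≤ A) (hhA : ∑' n, ‖h n‖ ^ 2 ≤ A)
    (H0 : ∀ k : ℤ, ∑' n, h n * (Real.exp (psi s (n - k) - psi s' n) * g (n - k)) = 0)
    {t : ℕ} (ht : (t : ℤ) < up i (s i) - lo i (s i)) :
    ‖∑ j ∈ range (t + 1), (Real.exp (psi s (lo i (s i) + j)) * g (lo i (s i) + j)) *
      (Real.exp (-psi s' (up i (s' i) - 1 - (t - j : ℕ))) * h (up i (s' i) - 1 - (t - j : ℕ)))‖ ≤
      Real.exp (2 * Lam i - gam i) * A := by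
  classical
  have es := hi i le_rfl
  have hup : up i (s' i) = up i (s i) - 2 ^ i := by rw [es, up_succ]
  obtain ⟨k, hk⟩ : ∃ k : ℤ, k = up i (s' i) - lo i (s i) - 1 - t := ⟨_, rfl⟩
  let T : ℤ → ℂ := fun n => h n * (Real.exp (psi s (n - k) - psi s' n) * g (n - k))
  let S : Finset ℤ := (range (t + 1)).image fun j : ℕ => lo i (s i) + j + k
  have hS : ∀ n, n ∉ S → n - k < lo i (s i) ∨ up i (s' i) ≤ n := by
    intro n hn
    by_contra hc
    push Not at hc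
    apply hn
    simp only [S, mem_image, mem_range]
    exact ⟨(n - k - lo i (s i)).toNat, by omega, by omega⟩
  have hsum : ∑ j ∈ range (t + 1), (Real.exp (psi s (lo i (s i) + j)) * g (lo i (s i) + j)) *
      (Real.exp (-psi s' (up i (s' i) - 1 - (t - j : ℕ))) * h (up i (s' i) - 1 - (t - j : ℕ))) =
      ∑ n ∈ S, T n := by
    rw [sum_image (fun a _ b _ hab => by simpa using hab)]
    refine sum_congr rfl fun j hj => ?_
    have hj' := mem_range.1 hj
    have e1 : lo i (s i) + j + k - k = lo i (s i) + j := by ring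
    have e2 : up i (s' i) - 1 - ((t - j : ℕ) : ℤ) = lo i (s i) + j + k := by omega
    simp only [T]
    rw [e1, e2, sub_eq_add_neg, Real.exp_add]
    push_cast
    ring
  have hg' : Summable fun n => ‖g (n - k)‖ ^ 2 := (Equiv.subRight k).summable_iff.2 hg
  have hgt : ∑' n, ‖g (n - k)‖ ^ 2 = ∑' n, ‖g n‖ ^ 2 :=
    (Equiv.subRight k).tsum_eq fun n => ‖g n‖ ^ 2
  rw [hsum]
  refine tail_bound (g := fun n => g (n - k)) (h := h) (Real.exp_pos _).le hg' hh
    (hgt ▸ hgA) hhA (fun n hn => ?_) (H0 k)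
  have h1 := psi_diff hs hs' hi (n := n - k) (n' := n) (by omega)
  have h2 := lev_diff_le (i := i) (s := s i) (es ▸ hs' i) (n := n - k) (n' := n) (es ▸ hS n hn)
  rw [← es] at h2
  have h3 := mul_le_mul_of_nonneg_left h2 (gam_nonneg i)
  have h4 : Real.exp (psi s (n - k) - psi s' n) ≤ Real.exp (2 * Lam i - gam i) :=
    Real.exp_le_exp.2 (by linarith)
  simp only [T, norm_mul, Complex.norm_real, Real.norm_eq_abs, Real.abs_exp]
  calc ‖h n‖ * (Real.exp (psi s (n - k) - psi s' n) * ‖g (n - k)‖)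
      = Real.exp (psi s (n - k) - psi s' n) * (‖h n‖ * ‖g (n - k)‖) := by ring
    _ ≤ _ := mul_le_mul_of_nonneg_right h4 (by positivity)

/-- the key nonvanishing lemma -/
theorem key {s s' : ℕ → ℕ} (hs : ∀ l, s l < 2 ^ l) (hs' : ∀ l, s' l < 2 ^ l) {i₀ : ℕ}
    (hi : ∀ l, i₀ ≤ l → s' l = s l + 1) {g h : ℤ → ℂ} (hg : Summable fun n => ‖g n‖ ^ 2)
    (hh : Summable fun n => ‖h n‖ ^ 2)
    (H0 : ∀ k : ℤ, ∑' n, h n * (Real.exp (psi s (n - k) - psi s' n) * g (n - k)) = 0)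
    {p₀ q₀ : ℤ} (hp : g p₀ ≠ 0) (hq : h q₀ ≠ 0) : False := by
  classical
  let f : ℤ → ℂ := fun n => Real.exp (psi s n) * g n
  let e : ℤ → ℂ := fun n => Real.exp (-psi s' n) * h n
  have hf0 : 0 < ‖f p₀‖ := norm_pos_iff.2 (mul_ne_zero (by simp) hp)
  have he0 : 0 < ‖e q₀‖ := norm_pos_iff.2 (mul_ne_zero (by simp) hq)
  obtain ⟨i, hi0, hi1, hi2, hi3, hi4, hi5, hi6⟩ : ∃ i : ℕ, i₀ ≤ i ∧ 1 / ((i : ℝ) + 1) ≤ ‖f p₀‖ ∧
      1 / ((i : ℝ) + 1) ≤ ‖e q₀‖ ∧ ∑' n, ‖g n‖ ^ 2 ≤ i ∧ ∑' n, ‖h n‖ ^ 2 ≤ i ∧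
      p₀.natAbs + q₀.natAbs ≤ i ∧ True := by
    have t := tendsto_one_div_add_atTop_nhds_zero_nat (𝕜 := ℝ)
    have u := tendsto_natCast_atTop_atTop (R := ℝ)
    exact ((Filter.eventually_ge_atTop i₀).and ((t.eventually (ge_mem_nhds hf0)).and
      ((t.eventually (ge_mem_nhds he0)).and ((u.eventually (Filter.eventually_ge_atTop _)).and
      ((u.eventually (Filter.eventually_ge_atTop _)).and
      ((Filter.eventually_ge_atTop _).and (Filter.Eventually.of_forall fun _ => trivial))))))).exists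
  have es := hi i hi0
  have hb : ∀ {w : ℤ → ℂ}, (Summable fun n => ‖w n‖ ^ 2) → ∑' n, ‖w n‖ ^ 2 ≤ i →
      ∀ n, ‖w n‖ ≤ i + 1 := by
    intro w hw hw' n
    have := hw.le_tsum n fun _ _ => by positivity
    nlinarith [norm_nonneg (w n), sq_nonneg (‖w n‖ - 1)]
  set M : ℕ := 2 * 4 ^ (i + 1) with hM
  have hMz : (M : ℤ) = up i (s i) - lo i (s i) := by rw [hM, up, lo]; push_cast; ring
  have hup : up i (s' i) = up i (s i) - 2 ^ i := by rw [es, up_succ]
  have hlo : lo i (s' i) = lo i (s i) - 2 ^ i := by rw [es, lo_succ]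
  let F : ℕ → ℂ := fun j => if j < M then f (lo i (s i) + j) else 0
  let H : ℕ → ℂ := fun j => if j < M then e (up i (s' i) - 1 - j) else 0
  have hB : (0 : ℝ) ≤ (i + 1) * Real.exp (Lam i) := by positivity
  have hF : ∀ j, ‖F j‖ ≤ (i + 1) * Real.exp (Lam i) := by
    intro j
    simp only [F]
    split_ifs with hj
    · have := abs_psi_le hs (i := i) (n := lo i (s i) + j) (by omega) (by omega)
      simp only [f, norm_mul, Complex.norm_real, Real.norm_eq_abs, Real.abs_exp]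
      rw [mul_comm]
      exact mul_le_mul (hb hg hi3 _) (Real.exp_le_exp.2 (abs_le.1 this).2) (by positivity)
        (by positivity)
    · simpa using hB
  have hH : ∀ j, ‖H j‖ ≤ (i + 1) * Real.exp (Lam i) := by
    intro j
    simp only [H]
    split_ifs with hj
    · have := abs_psi_le hs' (i := i) (n := up i (s' i) - 1 - j) (by omega) (by omega)
      simp only [e, norm_mul, Complex.norm_real, Real.norm_eq_abs, Real.abs_exp]
      rw [mul_comm]
      exact mul_le_mul (hb hh hi4 _) (Real.exp_le_exp.2 (by linarith [(abs_le.1 this).1]))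
        (by positivity) (by positivity)
    · simpa using hB
  have h2i : (i : ℤ) < 2 ^ i := by exact_mod_cast (Nat.lt_pow_self (by norm_num) : i < 2 ^ i)
  have h4i : (i : ℤ) < 4 ^ i := by exact_mod_cast (Nat.lt_pow_self (by norm_num) : i < 4 ^ i)
  obtain ⟨b1, b2⟩ := shift_bd (hs i)
  obtain ⟨b3, b4⟩ := shift_bd (hs' i)
  have hlo0 : lo i (s i) ≤ p₀ := by rw [lo, pow_succ]; omega
  have hup0 : q₀ < up i (s' i) := by rw [up, pow_succ]; omega
  obtain ⟨p, hp'⟩ : ∃ p : ℕ, (p : ℤ) = p₀ - lo i (s i) := ⟨(p₀ - lo i (s i)).toNat, by omega⟩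
  obtain ⟨q, hq'⟩ : ∃ q : ℕ, (q : ℤ) = up i (s' i) - 1 - q₀ :=
    ⟨(up i (s' i) - 1 - q₀).toNat, by omega⟩
  have hpq : p + q < M := by omega
  have hFp : F p = f p₀ := by
    simp only [F]
    rw [if_pos (by omega)]
    congr 1
    omega
  have hHq : H q = e q₀ := by
    simp only [H]
    rw [if_pos (by omega)]
    congr 1
    omega
  have main := (Classical.choose_spec (exists_gamma i (Lam i))).2 F H hF hH p q hpq
    (hFp ▸ hi1) (hHq ▸ hi2)
  refine absurd main (not_lt.2 ?_)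
  change ∑ t ∈ range M, _ ≤ (M : ℝ) * ((i + 1) * Real.exp (2 * Lam i - gam i))
  have hcard : (M : ℝ) * ((i + 1) * Real.exp (2 * Lam i - gam i)) =
      ∑ t ∈ range M, (i + 1) * Real.exp (2 * Lam i - gam i) := by
    simp
  rw [hcard]
  refine sum_le_sum fun t ht => ?_
  have ht' := mem_range.1 ht
  have hb := coeff_bound hs hs' (i := i) (fun l hl => hi l (by omega)) hg hh hi3 hi4 H0 (t := t)
    (by omega)
  have hsum : ∑ j ∈ range (t + 1), F j * H (t - j) = ∑ j ∈ range (t + 1),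
      (Real.exp (psi s (lo i (s i) + j)) * g (lo i (s i) + j)) *
      (Real.exp (-psi s' (up i (s' i) - 1 - (t - j : ℕ))) * h (up i (s' i) - 1 - (t - j : ℕ))) := by
    refine sum_congr rfl fun j hj => ?_
    have hj' := mem_range.1 hj
    simp only [F, H]
    rw [if_pos (by omega), if_pos (by omega)]
  rw [hsum]
  refine hb.trans ?_
  rw [mul_comm]
  exact mul_le_mul_of_nonneg_right (by linarith) (Real.exp_pos _).le

end Vale.Agent.P131
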