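import Vale.Agent.P131.Prob0

/-! The zero-one law used for the dimension of a hyperinvariant subspace. -/

namespace Vale.Agent.P131

open MeasureTheory ProbabilityTheory Filter Topology Finset

/-- a cut of level `m + 1` at position `2 ^ m`, and no cut of level `> m` in `[0, 2 ^ m)` -/
def G (m : ℕ) : Set X := {y | y (2 ^ m) = m + 1 ∧ ∀ j : ℤ, 0 ≤ j → j < 2 ^ m → y j ≤ m}

theorem G_eq (m : ℕ) : G m = Set.pi ((insert ((2 : ℤ) ^ m) (Ico 0 (2 ^ m)) : Finset ℤ) : Set ℤ)
    (fun j => if j = 2 ^ m then {m + 1} else Set.Iic m) := by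
  ext y
  simp only [G, Set.mem_ofPred_eq, coe_insert, coe_Ico, Set.mem_pi, Set.mem_insert_iff,
    Set.mem_Ico, forall_eq_or_imp, if_true, Set.mem_singleton_iff]
  refine and_congr_right fun _ => forall_congr' fun j => ?_
  constructor
  · rintro h ⟨h1, h2⟩
    rw [if_neg h2.ne]; exact h h1 h2
  · intro h h1 h2
    have := h ⟨h1, h2⟩
    rwa [if_neg h2.ne] at this

theorem measurableSet_G (m : ℕ) : MeasurableSet (G m) := by
  rw [G_eq]
  exact MeasurableSet.pi (Finset.countable_toSet _) fun _ _ => MeasurableSet.of_discrete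

theorem G_lower (m : ℕ) : 1 / 8 ≤ 2 ^ m * μ.real (G m) := by
  have h : μ.real (G m) = (1 / 2) ^ (m + 2) * (1 - (1 / 2) ^ (m + 1)) ^ (2 ^ m) := by
    rw [G_eq, measureReal_def]
    unfold μ
    rw [Measure.infinitePi_pi _ (fun _ _ => MeasurableSet.of_discrete), ENNReal.toReal_prod,
      prod_insert (by simp), if_pos rfl, ← measureReal_def, ν_singleton]
    congr 1
    rw [prod_congr rfl (g := fun _ => (1 - (1 / 2 : ℝ) ^ (m + 1)))]
    · rw [prod_const, Int.card_Ico]
      have : (2 : ℤ) ^ m - 0 = ((2 ^ m : ℕ) : ℤ) := by push_cast; ring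
      rw [this, Int.toNat_natCast]
    · intro j hj
      rw [if_neg (mem_Ico.1 hj).2.ne, ← measureReal_def, ν_Iic]
  have h1 : (1 / 2 : ℝ) ^ (m + 1) ≤ 1 := pow_le_one₀ (by norm_num) (by norm_num)
  have h2 := one_add_mul_le_pow (a := -(1 / 2 : ℝ) ^ (m + 1)) (by linarith) (2 ^ m)
  have h3 : (2 : ℝ) ^ m * (1 / 2) ^ m = 1 := by rw [← mul_pow]; norm_num
  have h4 : (1 / 2 : ℝ) ≤ (1 - (1 / 2) ^ (m + 1)) ^ (2 ^ m) := by
    rw [sub_eq_add_neg]
    refine le_trans (le_of_eq ?_) h2
    push_cast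
    rw [pow_succ]; linarith
  rw [h, ← mul_assoc, pow_add, ← mul_assoc, h3]
  linarith

theorem window_lower {m R : ℕ} {b : X → ℝ} (hb : Loc (Icc (-(R : ℤ)) R) b) (h0 : ∀ x, 0 ≤ b x)
    (h1 : ∀ x, b x ≤ 1) {i : ℤ} (hi : R ≤ i) (hi' : i + 3 * R + 1 < 2 ^ m) :
    μ.real (G m) * ((∫ x, b x ∂μ) * (1 - ∫ x, b x ∂μ) - (4 * R + 2) * (1 / 2) ^ (m + 1)) ≤
      ∫ x in G m, b (sh i x) * (1 - b (sh (i + (2 * R + 1)) x)) ∂μ := by
  classical
  set F : X → ℝ := fun x => b (sh i x) * (1 - b (sh (i + (2 * R + 1)) x)) with hF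
  set W : Finset ℤ := Icc (i - R) (i + 3 * R + 1) with hW
  have l1 : Loc (Icc (i - R) (i + R)) (fun x => b (sh i x)) := fun x y h =>
    hb _ _ fun j hj => h (j + i) (by rw [mem_Icc] at hj ⊢; omega)
  have l2 : Loc (Icc (i + R + 1) (i + 3 * R + 1)) (fun x => 1 - b (sh (i + (2 * R + 1)) x)) :=
    fun x y h => by
      show 1 - _ = 1 - _
      rw [hb (sh _ x) (sh _ y) fun j hj => h (j + (i + (2 * R + 1)))
        (by rw [mem_Icc] at hj ⊢; omega)]
  have bint := integrable_of_unit hb.measurable h0 h1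
  have eF : ∫ x, F x ∂μ = (∫ x, b x ∂μ) * (1 - ∫ x, b x ∂μ) := by
    rw [hF, l1.integral_mul l2 (by
      rw [Finset.disjoint_left]; intro j h1 h2; rw [mem_Icc] at h1 h2; omega)]
    rw [(mp_sh i).integral_comp' b, (mp_sh _).integral_comp' (fun x => 1 - b x),
      integral_sub (integrable_const _) bint]
    simp
  have lF : Loc W F := fun x y h => by
    have a1 := l1 x y fun j hj => h j (by rw [hW]; rw [mem_Icc] at hj ⊢; omega)
    have a2 := l2 x y fun j hj => h j (by rw [hW]; rw [mem_Icc] at hj ⊢; omega)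
    simp only [hF] at a1 a2 ⊢
    rw [a1, a2]
  have F0 : ∀ x, 0 ≤ F x := fun x => mul_nonneg (h0 _) (by linarith [h1 (sh (i + (2 * R + 1)) x)])
  have F1 : ∀ x, F x ≤ 1 := fun x =>
    mul_le_one₀ (h1 _) (by linarith [h1 (sh (i + (2 * R + 1)) x)])
      (by linarith [h0 (sh (i + (2 * R + 1)) x)])
  set A : Set X := {x | ∀ j ∈ W, x j ≤ m} with hA
  set S : Finset ℤ := Icc 0 (2 ^ m) \ W with hS
  set G' : Set X := {y | y (2 ^ m) = m + 1 ∧ ∀ j ∈ S, j < 2 ^ m → y j ≤ m} with hG'
  have hmem : (2 : ℤ) ^ m ∈ S := by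
    rw [hS, Finset.mem_sdiff, hW, mem_Icc, mem_Icc]
    refine ⟨⟨by positivity, le_rfl⟩, by omega⟩
  have lA : Loc W (A.indicator F) := fun x y h => by
    have : x ∈ A ↔ y ∈ A := forall₂_congr fun j hj => by rw [h j hj]
    by_cases hx : x ∈ A
    · rw [Set.indicator_of_mem hx, Set.indicator_of_mem (this.1 hx), lF x y h]
    · rw [Set.indicator_of_notMem hx, Set.indicator_of_notMem (fun hy => hx (this.2 hy))]
  have lG : Loc S (G'.indicator 1) := fun x y h => by
    have : x ∈ G' ↔ y ∈ G' := by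
      simp only [hG', Set.mem_ofPred_eq]
      rw [h _ hmem]
      exact and_congr_right fun _ => forall₂_congr fun j hj => by rw [h j hj]
    by_cases hx : x ∈ G'
    · rw [Set.indicator_of_mem hx, Set.indicator_of_mem (this.1 hx)]; rfl
    · rw [Set.indicator_of_notMem hx, Set.indicator_of_notMem (fun hy => hx (this.2 hy))]
  have mG : MeasurableSet G' := by
    have := lG.measurable (measurableSet_singleton (1 : ℝ))
    convert this using 1
    ext x
    by_cases hx : x ∈ G' <;> simp [hx]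
  have hGA : G m = G' ∩ A := by
    ext y
    simp only [G, hG', hA, Set.mem_ofPred_eq, Set.mem_inter_iff]
    constructor
    · rintro ⟨a1, a2⟩
      refine ⟨⟨a1, fun j hj hj' => a2 j (mem_Icc.1 (Finset.mem_sdiff.1 hj).1).1 hj'⟩, fun j hj => ?_⟩
      rw [hW, mem_Icc] at hj
      exact a2 j (by omega) (by omega)
    · rintro ⟨⟨a1, a2⟩, a3⟩
      refine ⟨a1, fun j hj hj' => ?_⟩
      by_cases hw : j ∈ W
      · exact a3 j hw
      · exact a2 j (Finset.mem_sdiff.2 ⟨mem_Icc.2 ⟨hj, hj'.le⟩, hw⟩) hj'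
  have e1 : ∫ x in G m, F x ∂μ = μ.real G' * ∫ x, A.indicator F x ∂μ := by
    rw [← integral_indicator (measurableSet_G m), ← integral_indicator_one mG,
      ← lG.integral_mul lA sdiff_disjoint]
    congr 1
    funext x
    rw [hGA]
    by_cases hx : x ∈ G' <;> by_cases hx' : x ∈ A <;> simp [hx, hx']
  have mA : MeasurableSet A := by
    have : A = ⋂ j ∈ W, (fun x : X => x j) ⁻¹' Set.Iic m := by ext; simp [hA]
    rw [this]
    exact W.measurableSet_biInter fun j _ => measurable_pi_apply j MeasurableSet.of_discrete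
  have hAc : μ.real Aᶜ ≤ (4 * R + 2) * (1 / 2) ^ (m + 1) := by
    have : Aᶜ = ⋃ j ∈ W, (fun x : X => x j) ⁻¹' Set.Ioi m := by ext; simp [hA]
    rw [this]
    refine (measureReal_biUnion_finset_le _ _).trans (le_of_eq ?_)
    rw [sum_congr rfl (g := fun _ => (1 / 2 : ℝ) ^ (m + 1))]
    · rw [sum_const, hW, Int.card_Icc, nsmul_eq_mul]
      congr 1
      have : i + 3 * R + 1 + 1 - (i - R) = ((4 * R + 2 : ℕ) : ℤ) := by push_cast; ring
      rw [this, Int.toNat_natCast]; push_cast; ring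
    · intro j _
      rw [← ν_Ioi]
      exact (measurePreserving_eval_infinitePi (fun _ : ℤ => ν) j).measureReal_preimage
        MeasurableSet.of_discrete.nullMeasurableSet
  have Fint := integrable_of_unit lF.measurable F0 F1
  have e2 : ∫ x, F x ∂μ - μ.real Aᶜ ≤ ∫ x, A.indicator F x ∂μ := by
    have ic : Integrable (Aᶜ.indicator (1 : X → ℝ)) μ :=
      (integrable_const (1 : ℝ)).indicator mA.compl
    rw [← integral_indicator_one mA.compl, ← integral_sub Fint ic]
    refine integral_mono (Fint.sub ic) (Fint.indicator mA) fun x => ?_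
    have := F1 x
    by_cases hx : x ∈ A <;> simp [hx, this]
  have e3 : 0 ≤ ∫ x, A.indicator F x ∂μ :=
    integral_nonneg fun x => Set.indicator_nonneg (fun x _ => F0 x) x
  have e4 : μ.real (G m) ≤ μ.real G' := by
    rw [hGA]; exact measureReal_mono Set.inter_subset_left
  rw [e1, ← eF]
  exact le_trans (mul_le_mul_of_nonneg_left (by linarith) measureReal_nonneg)
    (mul_le_mul_of_nonneg_right e4 e3)

theorem zero_one {a : X → ℝ} (ha : Measurable a) (h0 : ∀ x, 0 ≤ a x) (h1 : ∀ x, a x ≤ 1)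
    (h : ∀ m : ℕ, ∀ᵐ y ∂μ, y ∈ G m → ∀ i i' : ℤ, 1 ≤ i → i ≤ i' → i' ≤ 2 ^ m →
      a (sh i (sw (2 ^ m) y)) * (1 - a (sh i' y)) ≤ (1 / 2) ^ m) :
    (∫ x, a x ∂μ) * (1 - ∫ x, a x ∂μ) ≤ 0 := by
  refine le_of_forall_pos_le_add fun η' hη' => ?_
  obtain ⟨η, hη, rfl⟩ : ∃ η : ℝ, 0 < η ∧ η' = 34 * η := ⟨η' / 34, by positivity, by ring⟩
  obtain ⟨R, b, hb, b0, b1, hab⟩ := exists_local ha h0 h1 hη
  obtain ⟨m, hm1, hm2⟩ : ∃ m : ℕ, (8 * R + 4 : ℝ) ≤ 2 ^ m ∧ (2 * R + 2) * (1 / 2 : ℝ) ^ m ≤ η := by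
    have t1 : Tendsto (fun m : ℕ => (2 : ℝ) ^ m) atTop atTop :=
      tendsto_pow_atTop_atTop_of_one_lt one_lt_two
    have t2 : Tendsto (fun m : ℕ => (2 * R + 2) * (1 / 2 : ℝ) ^ m) atTop (𝓝 0) := by
      simpa using (tendsto_pow_atTop_nhds_zero_of_lt_one (r := (1 / 2 : ℝ)) (by norm_num)
        (by norm_num)).const_mul (2 * R + 2 : ℝ)
    exact ((t1.eventually_ge_atTop _).and (t2.eventually_le_const hη)).exists
  have hm1' : (8 * R + 4 : ℤ) ≤ 2 ^ m := by exact_mod_cast hm1
  have aint := integrable_of_unit ha h0 h1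
  have bint := integrable_of_unit hb.measurable b0 b1
  set d : X → ℝ := fun x => |a x - b x| with hd
  have dint : Integrable d μ := (aint.sub bint).abs
  set I : Finset ℤ := Icc ((R : ℤ) + 1) (2 ^ m - 3 * R - 2) with hI
  set tb := ∫ x, b x ∂μ with htb
  have key : ∀ i ∈ I, μ.real (G m) * (tb * (1 - tb) - η) ≤
      ∫ x in G m, d (sh i (sw (2 ^ m) x)) ∂μ + ∫ x in G m, d (sh (i + (2 * R + 1)) x) ∂μ := by
    intro i hi
    rw [hI, mem_Icc] at hi
    have w := window_lower (m := m) hb b0 b1 (i := i) (by omega) (by omega)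
    have i1 : Integrable (fun x => d (sh i (sw (2 ^ m) x))) μ :=
      ((mp_sh i).comp (mp_sw _)).integrable_comp_of_integrable dint
    have i2 : Integrable (fun x => d (sh (i + (2 * R + 1)) x)) μ :=
      (mp_sh _).integrable_comp_of_integrable dint
    have i3 : Integrable (fun x => b (sh i x) * (1 - b (sh (i + (2 * R + 1)) x))) μ :=
      integrable_of_unit ((hb.measurable.comp (sh i).measurable).mul
        (measurable_const.sub (hb.measurable.comp (sh _).measurable)))
        (fun x => mul_nonneg (b0 _) (by linarith [b1 (sh (i + (2 * R + 1)) x)]))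
        (fun x => mul_le_one₀ (b1 _) (by linarith [b1 (sh (i + (2 * R + 1)) x)])
          (by linarith [b0 (sh (i + (2 * R + 1)) x)]))
    have u : ∫ x in G m, b (sh i x) * (1 - b (sh (i + (2 * R + 1)) x)) ∂μ ≤
        ∫ x in G m, ((1 / 2) ^ m + (d (sh i (sw (2 ^ m) x)) + d (sh (i + (2 * R + 1)) x))) ∂μ := by
      refine setIntegral_mono_on_ae i3.integrableOn
        ((integrable_const _).add (i1.add i2)).integrableOn (measurableSet_G m) ?_
      filter_upwards [h m] with y hy hyG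
      have := hy hyG i (i + (2 * R + 1)) (by omega) (by omega) (by omega)
      have e : b (sh i y) = b (sh i (sw (2 ^ m) y)) := hb _ _ fun j hj => by
        rw [mem_Icc] at hj
        rw [sh_apply, sh_apply, sw_apply, Equiv.swap_apply_of_ne_of_ne (by omega) (by omega)]
      rw [e]
      simp only [hd]
      generalize sh i (sw (2 ^ m) y) = p at this ⊢
      generalize sh (i + (2 * R + 1)) y = q at this ⊢
      have p1 := neg_abs_le (a p - b p)
      have p2 := le_abs_self (a q - b q)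
      have p3 := abs_nonneg (a p - b p)
      have p4 := abs_nonneg (a q - b q)
      have q1 : b p * (1 - b q) ≤ (a p + |a p - b p|) * (1 - b q) :=
        mul_le_mul_of_nonneg_right (by linarith) (by linarith [b1 q])
      have q2 : a p * (1 - b q) ≤ a p * (1 - a q + |a q - b q|) :=
        mul_le_mul_of_nonneg_left (by linarith) (h0 p)
      have q3 : a p * |a q - b q| ≤ |a q - b q| := mul_le_of_le_one_left p4 (h1 p)
      have q4 : |a p - b p| * (1 - b q) ≤ |a p - b p| :=
        mul_le_of_le_one_right p3 (by linarith [b0 q])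
      nlinarith
    have i4 : Integrable (fun x => d (sh i (sw (2 ^ m) x)) + d (sh (i + (2 * R + 1)) x)) μ :=
      i1.add i2
    rw [integral_add (integrable_const _) i4.integrableOn,
      integral_add i1.integrableOn i2.integrableOn, setIntegral_const, smul_eq_mul] at u
    have v : μ.real (G m) * ((2 * R + 2) * (1 / 2 : ℝ) ^ m) ≤ μ.real (G m) * η :=
      mul_le_mul_of_nonneg_left hm2 measureReal_nonneg
    rw [pow_succ, ← htb] at w
    nlinarith
  have d0 : ∀ x, 0 ≤ d x := fun x => abs_nonneg _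
  have t1 : ∑ i ∈ I, ∫ x in G m, d (sh i (sw (2 ^ m) x)) ∂μ ≤ η := by
    refine le_trans (tower (measurableSet_G m) I
      (fun i => (Equiv.addRight i).trans (Equiv.swap 0 (2 ^ m))) ?_ dint d0) hab
    intro i hi j hj hij y y1 y2
    rw [hI, mem_Icc] at hi hj
    have a1 := y1.1
    have a2 := y2.2 (j - i) (by omega) (by omega)
    simp only [rx_apply, Equiv.symm_trans_apply, Equiv.symm_swap, Equiv.swap_apply_right,
      Equiv.addRight_symm, Equiv.coe_addRight] at a1 a2
    rw [Equiv.swap_apply_of_ne_of_ne (by omega) (by omega)] at a2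
    rw [show j - i + -j = 0 + -i by ring] at a2
    omega
  have t2 : ∑ i ∈ I, ∫ x in G m, d (sh (i + (2 * R + 1)) x) ∂μ ≤ η := by
    refine le_trans (tower (measurableSet_G m) I
      (fun i => Equiv.addRight (i + (2 * R + 1))) ?_ dint d0) hab
    intro i hi j hj hij y y1 y2
    rw [hI, mem_Icc] at hi hj
    have a1 := y2.1
    have a2 := y1.2 (2 ^ m - (j - i)) (by omega) (by omega)
    simp only [rx_apply, Equiv.addRight_symm, Equiv.coe_addRight] at a1 a2
    rw [show 2 ^ m - (j - i) + -(i + (2 * (R : ℤ) + 1)) = 2 ^ m + -(j + (2 * R + 1)) by ring] at a2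
    omega
  have s := sum_le_sum key
  rw [sum_add_distrib, sum_const, nsmul_eq_mul] at s
  have cI : (2 : ℝ) ^ m / 2 ≤ (I.card : ℝ) := by
    have : ((I.card : ℕ) : ℤ) = 2 ^ m - 4 * R - 2 := by
      rw [hI, Int.card_Icc, Int.toNat_of_nonneg (by omega)]; ring
    have h' : ((I.card : ℕ) : ℝ) = 2 ^ m - 4 * R - 2 := by exact_mod_cast this
    linarith
  have gl := G_lower m
  have g0 : 0 ≤ μ.real (G m) := measureReal_nonneg
  have g2 : 1 / 16 ≤ (I.card : ℝ) * μ.real (G m) := by nlinarith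
  have r1 : tb * (1 - tb) ≤ 33 * η := by
    by_contra hc
    push Not at hc
    have : (1 / 16) * (32 * η) < (I.card : ℝ) * μ.real (G m) * (tb * (1 - tb) - η) :=
      mul_lt_mul' g2 (by linarith) (by positivity) (by linarith)
    nlinarith
  have r2 : |∫ x, a x ∂μ - tb| ≤ η := by
    rw [htb, ← integral_sub aint bint]
    exact (abs_integral_le_integral_abs).trans hab
  have ta0 : 0 ≤ ∫ x, a x ∂μ := integral_nonneg h0
  have tb0 : 0 ≤ tb := integral_nonneg b0
  have ta1 : ∫ x, a x ∂μ ≤ 1 := by simpa using integral_mono aint (integrable_const 1) h1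
  have tb1 : tb ≤ 1 := by simpa using integral_mono bint (integrable_const 1) b1
  generalize ∫ x, a x ∂μ = ta at r2 ta0 ta1 ⊢
  have r3 : |(ta - tb) * (1 - ta - tb)| ≤ η := by
    rw [abs_mul]
    exact (mul_le_of_le_one_right (abs_nonneg _) (abs_le.2 ⟨by linarith, by linarith⟩)).trans r2
  have := le_abs_self ((ta - tb) * (1 - ta - tb))
  nlinarith

end Vale.Agent.P131
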