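import Vale.Agent.P131.Det
import Vale.Agent.P131.Prob
import Mathlib.MeasureTheory.Function.AEEqOfIntegral

/-! A closed subspace of `L²(X; K)` invariant under the intertwining fields is trivial. -/

namespace Vale.Agent.P131

open MeasureTheory Filter Topology
open scoped InnerProductSpace

variable {K : Type*} [NormedAddCommGroup K] [InnerProductSpace ℂ K] [CompleteSpace K]
  (b : HilbertBasis ℤ ℂ K)

theorem exists_Q (F : ℤ → K) : ∃ Q : K →L[ℂ] K, (∀ u, ‖Q u‖ ≤ ‖u‖) ∧
    (∀ v, (∀ j, ⟪F j, v⟫_ℂ = 0) → Q v = 0) ∧ ∀ j, Q (F j) = F j := by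
  let U : Submodule ℂ K := Submodule.span ℂ (Set.range F)
  refine ⟨Uᗮᗮ.starProjection, fun u => Submodule.norm_starProjection_apply_le _ u,
    fun v hv => ?_, fun j => ?_⟩
  · rw [Submodule.starProjection_apply_eq_zero_iff]
    refine Submodule.le_orthogonal_orthogonal _ ?_
    rw [Submodule.mem_orthogonal]
    intro u hu
    induction hu using Submodule.span_induction with
    | mem x hx => obtain ⟨j, rfl⟩ := hx; exact hv j
    | zero => simp
    | add x y _ _ h1 h2 => rw [inner_add_left, h1, h2, add_zero]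
    | smul c x _ h1 => rw [inner_smul_left, h1, mul_zero]
  · rw [Submodule.starProjection_eq_self_iff]
    exact Submodule.le_orthogonal_orthogonal _ (Submodule.subset_span ⟨j, rfl⟩)

omit [CompleteSpace K] in
theorem eq_zero_of_inner {v : K} (h : ∀ j, ⟪v, b j⟫_ℂ = 0) : v = 0 := by
  refine b.repr.injective ?_
  ext j
  rw [b.repr_apply_apply, map_zero, inner_eq_zero_symm.1 (h j)]
  rfl

/-- invariance under all fields of weighted translations that intertwine the weighted shifts -/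
def Inv (δ : ℕ → ℝ) (M : Submodule ℂ (Lp K 2 μ)) : Prop :=
  ∀ (c : X → ℤ → ℝ) (i : ℤ) (s : X → X), (∀ n, Measurable fun x => c x n) →
    (∀ x n, |c x n| ≤ 1) → MeasurePreserving s μ μ →
    (∀ x n, δ (x (n + i)) * c x n = c x (n + 1) * δ (s x n)) →
    ∀ g ∈ M, ∃ g' ∈ M, g' =ᵐ[μ] fun x => wop b (c x) i (g (s x))

theorem Inv.orth {δ : ℕ → ℝ} {M : Submodule ℂ (Lp K 2 μ)} (hE : Inv b δ M) {g h : Lp K 2 μ}
    (hg : g ∈ M) (hh : h ∈ Mᗮ) : ∀ᵐ x ∂μ, ⟪h x, g x⟫_ℂ = 0 := by
  refine (L2.integrable_inner (𝕜 := ℂ) h g).ae_eq_zero_of_forall_setIntegral_eq_zero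
    fun s hs _ => ?_
  have hc : ∀ x : X, |s.indicator (1 : X → ℝ) x| ≤ 1 := fun x => by
    by_cases hx : x ∈ s <;> simp [hx]
  obtain ⟨g', hg', e⟩ := hE (fun x _ => s.indicator 1 x) 0 id
    (fun _ => measurable_one.indicator hs) (fun x _ => hc x) (MeasurePreserving.id μ)
    (fun x n => by rw [add_zero, mul_comm]; rfl) g hg
  rw [← Submodule.inner_left_of_mem_orthogonal hg' hh, L2.inner_def, ← integral_indicator hs]
  refine integral_congr_ae ?_
  filter_upwards [e] with x hx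
  have : wop b (fun _ => s.indicator (1 : X → ℝ) x) 0 =
      ((s.indicator (1 : X → ℝ) x : ℝ) : ℂ) • ContinuousLinearMap.id ℂ K :=
    clm_ext b fun n => by rw [wop_basis b (fun _ => hc x), add_zero]; rfl
  rw [hx, this]
  by_cases hx : x ∈ s <;> simp [hx]

theorem measurable_delta (δ : ℕ → ℝ) (n : ℤ) : Measurable fun x : X => δ (x n) :=
  (measurable_of_countable δ).comp (measurable_pi_apply n)

theorem Inv.trivial {δ : ℕ → ℝ} (hpos : ∀ n, 0 < δ n) (hle : ∀ n, δ n ≤ 1) (hanti : Antitone δ)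
    (hdet : ∀ m, ∃ ε, Det b (δ m) (2 ^ m) ((1 / 2) ^ m) ε ∧ δ (m + 1) ≤ ε * δ m ∧ δ (m + 1) ≤ ε)
    {M : Submodule ℂ (Lp K 2 μ)} (hM : IsClosed (M : Set (Lp K 2 μ))) (hE : Inv b δ M) :
    M = ⊥ ∨ M = ⊤ := by
  classical
  have : CompleteSpace M := hM.completeSpace_coe
  have habs : ∀ n, |δ n| ≤ 1 := fun n => by rw [abs_of_pos (hpos n)]; exact hle n
  have hb1 : ∀ k, ‖b k‖ = 1 := b.orthonormal.1
  let e : ℤ → Lp K 2 μ := fun j => Lp.const 2 μ (b j)
  let f : ℤ → Lp K 2 μ := fun j => M.starProjection (e j)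
  have hf : ∀ j, f j ∈ M := fun j => M.starProjection_apply_mem _
  have hh : ∀ j, e j - f j ∈ Mᗮ := fun j => M.sub_starProjection_mem_orthogonal _
  choose Q Q1 Q2 Q3 using fun x : X => exists_Q (fun j => b j - f j x)
  have orth : ∀ g ∈ M, ∀ᵐ x ∂μ, ∀ j, ⟪b j - f j x, g x⟫_ℂ = 0 := by
    intro g hg
    refine ae_all_iff.2 fun j => ?_
    filter_upwards [hE.orth b hg (hh j), Lp.coeFn_sub (e j) (f j),
      Lp.coeFn_const 2 μ (b j)] with x h1 h2 h3
    rw [h2, Pi.sub_apply] at h1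
    have h4 : e j x = b j := h3
    rwa [h4] at h1
  have mem : ∀ g ∈ M, ∀ᵐ x ∂μ, Q x (g x) = 0 := fun g hg => by
    filter_upwards [orth g hg] with x hx using Q2 x _ hx
  have fam : ∀ (c : X → ℤ → ℝ) (i : ℤ) (s : X → X), (∀ n, Measurable fun x => c x n) →
      (∀ x n, |c x n| ≤ 1) → MeasurePreserving s μ μ →
      (∀ x n, δ (x (n + i)) * c x n = c x (n + 1) * δ (s x n)) →
      ∀ᵐ x ∂μ, ∀ j, Q x (wop b (c x) i (f j (s x))) = 0 := by
    intro c i s h1 h2 h3 h4
    refine ae_all_iff.2 fun j => ?_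
    obtain ⟨g', hg', e'⟩ := hE c i s h1 h2 h3 h4 _ (hf j)
    filter_upwards [mem g' hg', e'] with x a1 a2
    rwa [a2] at a1
  have Qb : ∀ᵐ x ∂μ, ∀ j, Q x (b j) = b j - f j x := by
    filter_upwards [ae_all_iff.2 fun j => mem _ (hf j)] with x hx j
    rw [← Q3 x j, map_sub, hx j, sub_zero]
  let N : ℤ → X → ℝ := fun j x => ‖b j - f j x‖
  have pyth : ∀ᵐ x ∂μ, ∀ j, ‖f j x‖ ^ 2 = 1 - N j x ^ 2 ∧ ‖⟪b j, f j x⟫_ℂ‖ = ‖f j x‖ ^ 2 := by
    filter_upwards [ae_all_iff.2 fun j => orth _ (hf j)] with x hx j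
    have h1 := hx j j
    have h2 := norm_add_sq_eq_norm_sq_add_norm_sq_of_inner_eq_zero _ _ h1
    rw [sub_add_cancel, hb1] at h2
    refine ⟨by simp only [N]; nlinarith, ?_⟩
    rw [inner_sub_left, sub_eq_zero] at h1
    rw [h1, inner_self_eq_norm_sq_to_K]
    simp
  have hT : ∀ᵐ x ∂μ, ∀ u, ‖Q x (wop b (fun k => δ (x k)) 1 u)‖ ≤ ‖Q x u‖ := by
    filter_upwards [Qb, fam (fun x k => δ (x k)) 1 id (measurable_delta δ) (fun _ _ => habs _)
      (MeasurePreserving.id μ) (fun _ _ => rfl)] with x h1 h2 u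
    have : Q x ∘L wop b (fun k => δ (x k)) 1 = Q x ∘L wop b (fun k => δ (x k)) 1 ∘L Q x :=
      clm_ext b fun n => by
        simp only [ContinuousLinearMap.comp_apply]
        rw [h1, map_sub, map_sub]
        have := h2 n
        simp only [id] at this
        rw [this, sub_zero]
    have h3 : Q x (wop b (fun k => δ (x k)) 1 u) = Q x (wop b (fun k => δ (x k)) 1 (Q x u)) :=
      congrArg (fun A : K →L[ℂ] K => A u) this
    rw [h3]
    exact (Q1 x _).trans (norm_wop_apply b _ _ _)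
  have shift : ∀ᵐ x ∂μ, ∀ i j, N (j + i) x ≤ N j (sh i x) := by
    have := fun i => fam (fun _ _ => 1) i (sh i) (fun _ => measurable_const) (fun _ _ => by simp)
      (mp_sh i) (fun x n => by simp)
    filter_upwards [Qb, ae_all_iff.2 this] with x h1 h2 i j
    have h3 : b (j + i) - f (j + i) x = Q x (wop b (fun _ => 1) i (b j - f j (sh i x))) := by
      rw [map_sub, map_sub, h2 i j, sub_zero, wop_basis b (fun _ => by simp), ← h1]
      simp
    show ‖_‖ ≤ ‖_‖
    rw [h3]
    exact (Q1 x _).trans (norm_wop_apply b _ _ _)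
  have eqN : ∀ᵐ x ∂μ, ∀ i, N 0 (sh i x) = N i x := by
    filter_upwards [shift, ae_all_iff.2 fun i => (mp_sh i).quasiMeasurePreserving.ae shift]
      with x h1 h2 i
    refine le_antisymm ?_ (by simpa using h1 i 0)
    have h3 := h2 i (-i) i
    have h4 : sh (-i) (sh i x) = x := by funext n; simp
    rwa [h4, add_neg_cancel] at h3
  let a : X → ℝ := fun x => max 0 (1 - N 0 x ^ 2)
  have ma : Measurable a := measurable_const.max (measurable_const.sub
    ((stronglyMeasurable_const.sub (Lp.stronglyMeasurable (f 0))).norm.measurable.pow_const 2))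
  have a0 : ∀ x, 0 ≤ a x := fun x => le_max_left _ _
  have a1 : ∀ x, a x ≤ 1 := fun x => max_le zero_le_one (by nlinarith [sq_nonneg (N 0 x)])
  have ha : ∀ᵐ x ∂μ, ∀ i, a (sh i x) = ‖f i x‖ ^ 2 := by
    filter_upwards [eqN, pyth] with x h1 h2 i
    show max 0 (1 - N 0 (sh i x) ^ 2) = _
    rw [h1, ← (h2 i).1, max_eq_right (sq_nonneg _)]
  have z := zero_one ma a0 a1 (fun m => by
    obtain ⟨ε, hd, d1, d2⟩ := hdet m
    have hn : ((2 ^ m : ℕ) : ℤ) = 2 ^ m := by push_cast; rfl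
    have hl : (0 : ℤ) < 2 ^ m := by positivity
    have hD := fam (fun y k => if 1 ≤ k ∧ k ≤ ((2 ^ m : ℕ) : ℤ) then δ (y 0) else δ (y (2 ^ m))) 0
      (sw (2 ^ m)) (fun n => by split_ifs <;> exact measurable_delta δ _)
      (fun y n => by split_ifs <;> exact habs _) (mp_sw _) (fun y n => by
        rw [add_zero, hn, sw_apply]
        by_cases h0 : n = 0
        · subst h0
          rw [if_neg (by omega), if_pos (by omega), Equiv.swap_apply_left]
        · by_cases h1 : n = 2 ^ m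
          · subst h1
            rw [if_pos (by omega), if_neg (by omega), Equiv.swap_apply_right]
          · rw [Equiv.swap_apply_of_ne_of_ne h0 h1, mul_comm]
            congr 1
            by_cases h2 : 1 ≤ n ∧ n ≤ 2 ^ m
            · rw [if_pos h2, if_pos (by omega)]
            · rw [if_neg h2, if_neg (by omega)])
    filter_upwards [hD, hT, Qb, ha, pyth, (mp_sw (2 ^ m)).quasiMeasurePreserving.ae ha,
      (mp_sw (2 ^ m)).quasiMeasurePreserving.ae pyth] with y h1 h2 h3 h4 h5 h6 h7 hy i i' i1 i2 i3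
    have g0 : (0 : ℝ) < (1 / 2) ^ m := by positivity
    have g1 : (1 / 2 : ℝ) ^ m ≤ 1 := pow_le_one₀ (by norm_num) (by norm_num)
    have b0 := a0 (sh i (sw (2 ^ m) y))
    have b1 := a1 (sh i (sw (2 ^ m) y))
    have b2 := a0 (sh i' y)
    have b3 := a1 (sh i' y)
    rcases le_total (a (sh i (sw (2 ^ m) y))) ((1 / 2) ^ m) with h | h
    · nlinarith
    · have hv : ‖f i (sw (2 ^ m) y)‖ ≤ 1 := by
        rw [h6 i] at b1
        exact (sq_le_one_iff₀ (norm_nonneg _)).1 b1
      have := hd (Q y) (fun k => δ (y k)) (δ (y 0)) (δ (y (2 ^ m))) (f i (sw (2 ^ m) y)) (Q1 y)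
        (fun _ => habs _) h2 (fun k k1 k2 => hanti (hy.2 k (by omega) (by omega)))
        (by rw [hn, hy.1, abs_of_pos (hpos _)]; exact d2) (hanti (hy.2 0 le_rfl hl)) (hle _)
        (hpos _).le (by rw [hy.1]; exact d1) hv (h1 i) i i' i1 i2 (by omega)
        (by rw [(h7 i).2, ← h6 i]; exact h)
      rw [h3] at this
      have h8 : 1 - a (sh i' y) = N i' y ^ 2 := by rw [h4, (h5 i').1]; ring
      have h9 : N i' y ^ 2 ≤ ((1 / 2) ^ m) ^ 2 := pow_le_pow_left₀ (norm_nonneg _) this 2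
      nlinarith)
  have aint := integrable_of_unit ma a0 a1
  have ta0 : 0 ≤ ∫ x, a x ∂μ := integral_nonneg a0
  have ta1 : ∫ x, a x ∂μ ≤ 1 := by simpa using integral_mono aint (integrable_const 1) a1
  rcases eq_or_lt_of_le ta0 with h | h
  · left
    have h0 : a =ᵐ[μ] 0 := (integral_eq_zero_iff_of_nonneg a0 aint).1 h.symm
    rw [eq_bot_iff]
    intro g hg
    rw [Submodule.mem_bot]
    refine Lp.ext ?_
    filter_upwards [orth g hg, ha, Lp.coeFn_zero K 2 μ,
      ae_all_iff.2 fun i => (mp_sh i).quasiMeasurePreserving.ae h0] with x h1 h2 h3 h4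
    rw [h3]
    refine eq_zero_of_inner b fun j => ?_
    have h5 : f j x = 0 := by
      have := (h2 j).symm.trans (h4 j)
      simpa using this
    have := h1 j
    rw [h5, sub_zero] at this
    exact inner_eq_zero_symm.1 this
  · right
    have h' : ∫ x, (1 - a x) ∂μ = 0 := by
      rw [integral_sub (integrable_const _) aint]
      have : 1 - ∫ x, a x ∂μ ≤ 0 := by nlinarith
      simp only [integral_const, probReal_univ, smul_eq_mul, mul_one]
      linarith
    have h0 : (fun x => 1 - a x) =ᵐ[μ] 0 := (integral_eq_zero_iff_of_nonneg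
      (fun x => sub_nonneg.2 (a1 x)) ((integrable_const _).sub aint)).1 h'
    rw [← Submodule.orthogonal_eq_bot_iff, eq_bot_iff]
    intro g hg
    rw [Submodule.mem_bot]
    refine Lp.ext ?_
    filter_upwards [ae_all_iff.2 fun j => hE.orth b (hf j) hg, ha, pyth, Lp.coeFn_zero K 2 μ,
      ae_all_iff.2 fun i => (mp_sh i).quasiMeasurePreserving.ae h0] with x h1 h2 h6 h3 h4
    rw [h3]
    refine eq_zero_of_inner b fun j => ?_
    have h5 : f j x = b j := by
      have h7 : 1 - a (sh j x) = 0 := h4 j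
      rw [h2 j, (h6 j).1] at h7
      have h8 : N j x = 0 := by nlinarith
      exact (sub_eq_zero.1 (norm_eq_zero.1 h8)).symm
    rw [← h5]
    exact h1 j

end Vale.Agent.P131
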