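import Mathlib.Analysis.Seminorm
import Mathlib.Analysis.Complex.Basic

/-! A quantitative form of the unicellularity of a nilpotent weighted shift. -/

namespace Vale.Agent.P131

open Finset

theorem gen {V : Type*} [AddCommGroup V] [Module ℂ V] (b : ℝ) (hb : 0 < b) (n : ℕ) :
    ∀ γ : ℝ, 0 < γ → ∃ ε : ℝ, 0 < ε ∧ ∀ (φ : Seminorm ℂ V) (T : V →ₗ[ℂ] V) (e : ℕ → V)
      (w : ℕ → ℝ) (u : ℕ → ℂ), (∀ v, φ (T v) ≤ φ v) → (∀ j, φ (e j) ≤ 1) →
      (∀ j, j + 1 < n → T (e (j + 1)) = (w j : ℂ) • e j) →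
      (∀ j, j + 1 < n → b ≤ w j ∧ w j ≤ 1) → φ (T (e 0)) ≤ ε → (∀ j < n, ‖u j‖ ≤ 1) →
      φ (∑ j ∈ range n, u j • e j) ≤ ε → ∀ i < n, γ ≤ ‖u i‖ → ∀ i' ≤ i, φ (e i') ≤ γ := by
  induction n with
  | zero => intro γ hγ; exact ⟨1, one_pos, fun _ _ _ _ _ _ _ _ _ _ _ _ i hi => by omega⟩
  | succ n ih =>
    intro γ hγ
    obtain ⟨ε₁, h1, H1⟩ := ih γ hγ
    obtain ⟨s, hs, hs1, hs2⟩ : ∃ s : ℝ, 0 < s ∧ s ≤ ε₁ / 2 ∧ s ≤ γ :=
      ⟨min (ε₁ / 2) γ, by positivity, min_le_left _ _, min_le_right _ _⟩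
    obtain ⟨γ', hγ', g1, g2, g3⟩ : ∃ γ' : ℝ, 0 < γ' ∧ γ' ≤ b * s ∧ γ' ≤ γ ∧
        γ' ≤ γ * s / (2 * (n + 1)) :=
      ⟨min (b * s) (min γ (γ * s / (2 * (n + 1)))), by positivity, min_le_left _ _,
        (min_le_right _ _).trans (min_le_left _ _), (min_le_right _ _).trans (min_le_right _ _)⟩
    obtain ⟨ε₂, h2, H2⟩ := ih γ' hγ'
    obtain ⟨ε, hε, e1, e2, e3⟩ : ∃ ε : ℝ, 0 < ε ∧ ε ≤ ε₁ / 2 ∧ ε ≤ ε₂ / 2 ∧ ε ≤ γ * s / 2 :=
      ⟨min (ε₁ / 2) (min (ε₂ / 2) (γ * s / 2)), by positivity, min_le_left _ _,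
        (min_le_right _ _).trans (min_le_left _ _), (min_le_right _ _).trans (min_le_right _ _)⟩
    refine ⟨ε, hε, fun φ T e w u hT he hw hb' h0 hu hS i hi hγi i' hi' => ?_⟩
    have hsm : ∀ (c : ℂ) (v : V), φ (c • v) = ‖c‖ * φ v := fun c v => map_smul_eq_mul φ c v
    by_cases hn : ‖u n‖ < s
    · have hin : i < n := by
        rcases Nat.lt_succ_iff_lt_or_eq.1 hi with h | rfl
        · exact h
        · linarith
      refine H1 φ T e w u hT he (fun j hj => hw j (by omega)) (fun j hj => hb' j (by omega))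
        (by linarith) (fun j hj => hu j (by omega)) ?_ i hin hγi i' hi'
      have : ∑ j ∈ range n, u j • e j = ∑ j ∈ range (n + 1), u j • e j - u n • e n := by
        rw [sum_range_succ]; abel
      rw [this]
      refine (map_sub_le_add φ _ _).trans ?_
      rw [hsm]
      have := mul_le_mul hn.le (he n) (apply_nonneg φ _) hs.le
      linarith
    · push Not at hn
      have hT' : T (∑ j ∈ range (n + 1), u j • e j) =
          ∑ j ∈ range n, ((w j : ℂ) * u (j + 1)) • e j + u 0 • T (e 0) := by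
        rw [sum_range_succ', map_add, map_sum, map_smul]
        congr 1
        refine sum_congr rfl fun j hj => ?_
        rw [map_smul, hw j (by have := mem_range.1 hj; omega), smul_smul, mul_comm]
      have hS' : φ (∑ j ∈ range n, ((w j : ℂ) * u (j + 1)) • e j) ≤ ε₂ := by
        have : ∑ j ∈ range n, ((w j : ℂ) * u (j + 1)) • e j =
            T (∑ j ∈ range (n + 1), u j • e j) - u 0 • T (e 0) := by rw [hT']; abel
        rw [this]
        refine (map_sub_le_add φ _ _).trans ?_
        rw [hsm]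
        have := mul_le_mul (hu 0 (by omega)) h0 (apply_nonneg φ _) zero_le_one
        have := hT (∑ j ∈ range (n + 1), u j • e j)
        linarith
      have hnorm : ∀ j < n, ‖(w j : ℂ) * u (j + 1)‖ = w j * ‖u (j + 1)‖ := fun j hj => by
        rw [norm_mul, Complex.norm_real, Real.norm_of_nonneg (hb.le.trans (hb' j (by omega)).1)]
      have hlow : ∀ j < n, φ (e j) ≤ γ' := by
        intro j hj
        obtain ⟨n', rfl⟩ : ∃ n', n = n' + 1 := ⟨n - 1, by omega⟩
        refine H2 φ T e w (fun j => (w j : ℂ) * u (j + 1)) hT he (fun j hj => hw j (by omega))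
          (fun j hj => hb' j (by omega)) (by linarith) (fun j hj => ?_) hS' n' (by omega) ?_ j
          (by omega)
        · rw [hnorm j hj]
          exact mul_le_one₀ (hb' j (by omega)).2 (norm_nonneg _) (hu _ (by omega))
        · rw [hnorm n' (by omega)]
          exact g1.trans (mul_le_mul (hb' n' (by omega)).1 hn hs.le
            (hb.le.trans (hb' n' (by omega)).1))
      rcases Nat.lt_succ_iff_lt_or_eq.1 (lt_of_le_of_lt hi' hi) with h | rfl
      · exact (hlow i' h).trans g2
      · have h3 : φ (∑ j ∈ range i', u j • e j) ≤ i' * γ' := by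
          have : φ (∑ j ∈ range i', u j • e j) ≤ ∑ j ∈ range i', φ (u j • e j) :=
            Finset.le_sum_of_subadditive φ (map_zero φ).le (map_add_le_add φ) _ _
          refine this.trans ?_
          have : ∑ j ∈ range i', φ (u j • e j) ≤ ∑ j ∈ range i', γ' :=
            sum_le_sum fun j hj => by
              rw [hsm]
              have := mul_le_mul (hu j (by have := mem_range.1 hj; omega))
                (hlow j (mem_range.1 hj)) (apply_nonneg φ _) zero_le_one
              linarith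
          simpa using this
        have h4 : u i' • e i' = ∑ j ∈ range (i' + 1), u j • e j - ∑ j ∈ range i', u j • e j := by
          rw [sum_range_succ]; abel
        have h5 : ‖u i'‖ * φ (e i') ≤ ε + i' * γ' := by
          rw [← hsm, h4]
          exact (map_sub_le_add φ _ _).trans (add_le_add hS h3)
        have h6 : (i' : ℝ) * γ' ≤ γ * s / 2 := by
          have h7 : γ' * (2 * (i' + 1)) ≤ γ * s := (le_div_iff₀ (by positivity)).1 g3
          nlinarith
        have h8 : s * φ (e i') ≤ s * γ := by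
          have := mul_le_mul_of_nonneg_right hn (apply_nonneg φ (e i'))
          linarith
        exact le_of_mul_le_mul_left h8 hs

end Vale.Agent.P131
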