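import Vale.Agent.P131.Fibre
import Mathlib.MeasureTheory.Measure.SeparableMeasure

/-! A nonscalar operator with transitive commutant. -/

namespace Vale.Agent.P131

open MeasureTheory Filter Topology TopologicalSpace
open scoped InnerProductSpace

theorem exists_basis (H : Type*) [NormedAddCommGroup H] [InnerProductSpace ℂ H] [CompleteSpace H]
    [SeparableSpace H] (hinf : ¬ FiniteDimensional ℂ H) : Nonempty (HilbertBasis ℤ ℂ H) := by
  classical
  obtain ⟨w, b, hb⟩ := exists_hilbertBasis ℂ H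
  have hc : Countable w := by
    refine Pairwise.countable_of_isOpen_disjoint (s := fun i : w => Metric.ball (b i) (1 / 2))
      (fun i j hij => Metric.ball_disjoint_ball ?_) (fun _ => Metric.isOpen_ball)
      (fun _ => Metric.nonempty_ball.2 (by norm_num))
    have h1 : ⟪b i, -b j⟫_ℂ = 0 := by rw [inner_neg_right, b.orthonormal.2 hij, neg_zero]
    have h2 := norm_add_sq_eq_norm_sq_add_norm_sq_of_inner_eq_zero _ _ h1
    rw [norm_neg, b.orthonormal.1, b.orthonormal.1, ← sub_eq_add_neg] at h2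
    rw [dist_eq_norm]
    nlinarith [norm_nonneg (b i - b j)]
  have hi : Infinite w := by
    by_contra h
    rw [not_infinite_iff_finite] at h
    have := Fintype.ofFinite w
    exact hinf (Module.Finite.of_basis b.toOrthonormalBasis.toBasis)
  obtain ⟨d⟩ := nonempty_denumerable w
  let e : ℤ ≃ w := (Denumerable.eqv ℤ).trans (Denumerable.eqv w).symm
  refine ⟨HilbertBasis.mk (b.orthonormal.comp e e.injective) ?_⟩
  rw [e.surjective.range_comp, b.dense_span]

variable {K : Type*} [NormedAddCommGroup K] [InnerProductSpace ℂ K] [CompleteSpace K]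

theorem main_L2 (b : HilbertBasis ℤ ℂ K) : ∃ T : Lp K 2 μ →L[ℂ] Lp K 2 μ,
    (∀ c : ℂ, T ≠ c • 1) ∧ ∀ M : Submodule ℂ (Lp K 2 μ), IsClosed (M : Set (Lp K 2 μ)) →
      (∀ A : Lp K 2 μ →L[ℂ] Lp K 2 μ, A * T = T * A → ∀ v ∈ M, A v ∈ M) → M = ⊥ ∨ M = ⊤ := by
  obtain ⟨δ, hpos, hle, hanti, hdet⟩ := exists_delta b
  have habs : ∀ n, |δ n| ≤ 1 := fun n => by rw [abs_of_pos (hpos n)]; exact hle n
  obtain ⟨T, hT⟩ := exists_op b (c := fun x k => δ (x k)) (measurable_delta δ)
    (fun _ _ => habs _) 1 (MeasurePreserving.id μ)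
  refine ⟨T, fun c hc => ?_, fun M hM hA => Inv.trivial b hpos hle hanti hdet hM ?_⟩
  · have h1 := hT (Lp.const 2 μ (b 0))
    rw [hc] at h1
    have h2 : ∀ᵐ x ∂μ, False := by
      filter_upwards [h1, Lp.coeFn_smul c (Lp.const 2 μ (b 0)), Lp.coeFn_const 2 μ (b 0)]
        with x a1 a2 a3
      have a4 : (c • Lp.const 2 μ (b 0) : Lp K 2 μ) x = wop b (fun k => δ (x k)) 1
        ((Lp.const 2 μ (b 0) : Lp K 2 μ) x) := a1
      have a5 : (Lp.const 2 μ (b 0) : Lp K 2 μ) x = b 0 := a3
      rw [a2, Pi.smul_apply, a5, wop_basis b (fun _ => habs _)] at a4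
      have a6 := congrArg (fun v => ⟪b (0 + 1), v⟫_ℂ) a4
      simp only [inner_smul_right] at a6
      rw [b.orthonormal.2 (by norm_num), inner_self_eq_norm_sq_to_K, b.orthonormal.1] at a6
      have a7 : (δ (x 0) : ℂ) = 0 := by simpa using a6.symm
      exact (hpos _).ne' (by exact_mod_cast a7)
    exact h2.exists.elim fun _ h => h
  · intro c i s hm hc hs hint g hg
    obtain ⟨A, hA'⟩ := exists_op b hm hc i hs
    refine ⟨A g, hA A ?_ g hg, hA' g⟩
    ext1 f
    refine Lp.ext ?_
    filter_upwards [hA' (T f), hT (A f), hA' f, hs.quasiMeasurePreserving.ae (hT f)]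
      with x a1 a2 a3 a4
    have e : wop b (c x) i ∘L wop b (fun k => δ (s x k)) 1 =
        wop b (fun k => δ (x k)) 1 ∘L wop b (c x) i := clm_ext b fun n => by
      simp only [ContinuousLinearMap.comp_apply]
      rw [wop_basis b (fun _ => habs _), wop_basis b (hc x), map_smul, map_smul,
        wop_basis b (fun _ => habs _), wop_basis b (hc x), smul_smul, smul_smul,
        add_right_comm n 1 i]
      congr 1
      have := hint x n
      norm_cast
      linarith
    show A (T f) x = T (A f) x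
    rw [a1, a2, a4]
    simp only [id]
    rw [a3]
    exact congrArg (fun B : K →L[ℂ] K => B (f (s x))) e

theorem not_finiteDimensional_L2 (b : HilbertBasis ℤ ℂ K) :
    ¬ FiniteDimensional ℂ (Lp K 2 μ) := by
  intro h
  have ho : Orthonormal ℂ (fun j : ℤ => (Lp.const 2 μ (b j) : Lp K 2 μ)) := by
    classical
    rw [orthonormal_iff_ite]
    intro i j
    rw [L2.inner_def, ← orthonormal_iff_ite.1 b.orthonormal i j,
      integral_congr_ae (g := fun _ => ⟪b i, b j⟫_ℂ)]
    · simp
    · filter_upwards [Lp.coeFn_const 2 μ (b i), Lp.coeFn_const 2 μ (b j)] with x h1 h2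
      rw [h1, h2]; rfl
  have := ho.linearIndependent.finite
  exact not_finite ℤ

theorem main (H : Type*) [NormedAddCommGroup H] [InnerProductSpace ℂ H] [CompleteSpace H]
    [SeparableSpace H] (hinf : ¬ FiniteDimensional ℂ H) :
    ∃ T : H →L[ℂ] H, (∀ c : ℂ, T ≠ c • 1) ∧ ∀ M : Submodule ℂ H, IsClosed (M : Set H) →
      (∀ A : H →L[ℂ] H, A * T = T * A → ∀ v ∈ M, A v ∈ M) → M = ⊥ ∨ M = ⊤ := by
  obtain ⟨b⟩ := exists_basis H hinf
  have : Fact ((2 : ENNReal) ≠ ⊤) := ⟨by norm_num⟩
  obtain ⟨b₀⟩ := exists_basis (Lp H 2 μ) (not_finiteDimensional_L2 b)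
  obtain ⟨T, hT1, hT2⟩ := main_L2 b
  let U : Lp H 2 μ ≃L[ℂ] H := (b₀.repr.trans b.repr.symm).toContinuousLinearEquiv
  refine ⟨(U : Lp H 2 μ →L[ℂ] H) ∘L T ∘L (U.symm : H →L[ℂ] Lp H 2 μ), fun c hc => hT1 c ?_,
    fun M hM hA => ?_⟩
  · ext1 f
    apply U.injective
    have := congrArg (fun B : H →L[ℂ] H => B (U f)) hc
    simpa using this
  · have h := hT2 (M.comap (U : Lp H 2 μ →ₗ[ℂ] H)) (hM.preimage U.continuous) (fun A hAT v hv => by
      have := hA ((U : Lp H 2 μ →L[ℂ] H) ∘L A ∘L (U.symm : H →L[ℂ] Lp H 2 μ)) (by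
        ext1 x
        have := congrArg (fun B : Lp H 2 μ →L[ℂ] Lp H 2 μ => B (U.symm x)) hAT
        simpa using this) (U v) hv
      simpa using this)
    rcases h with h | h
    · left
      rw [eq_bot_iff]
      intro x hx
      have : U.symm x ∈ M.comap (U : Lp H 2 μ →ₗ[ℂ] H) := by simpa using hx
      rw [h, Submodule.mem_bot] at this
      simpa using congrArg U this
    · right
      rw [eq_top_iff]
      intro x _
      have : U.symm x ∈ M.comap (U : Lp H 2 μ →ₗ[ℂ] H) := by rw [h]; trivial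
      simpa using this

end Vale.Agent.P131
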