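import Vale.Agent.P131.Fiber

/-! A direct integral of bilateral weighted shifts whose commutant is transitive. -/

namespace Vale.Agent.P131

open MeasureTheory Measure Filter

theorem exists_wcomp {X : Type} [MeasurableSpace X] {μ : Measure X} {c : X → ℂ}
    (hc : Measurable c) {C : ℝ} (hb : ∀ x, ‖c x‖ ≤ C) {φ : X → X} (hφ : MeasurePreserving φ μ μ) :
    ∃ A : Lp ℂ 2 μ →L[ℂ] Lp ℂ 2 μ, ∀ g, A g =ᵐ[μ] fun x => c x * g (φ x) := by
  have hm : MemLp c ⊤ μ := memLp_top_of_bound hc.aestronglyMeasurable C (.of_forall hb)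
  refine ⟨((ContinuousLinearMap.mul ℂ ℂ).holderL μ ⊤ 2 2 hm.toLp).comp
    (Lp.compMeasurePreservingₗᵢ ℂ φ hφ).toContinuousLinearMap, fun g => ?_⟩
  have h1 := (ContinuousLinearMap.mul ℂ ℂ).coeFn_holder (r := 2) hm.toLp
    (Lp.compMeasurePreserving φ hφ g)
  filter_upwards [h1, hm.coeFn_toLp, Lp.coeFn_compMeasurePreserving g hφ] with x a b c
  refine a.trans ?_
  rw [b, c]
  rfl

theorem wcomp_comm {X : Type} [MeasurableSpace X] {μ : Measure X} {c w : X → ℂ} {φ ρ : X → X}
    (hφ : MeasurePreserving φ μ μ) (hρ : MeasurePreserving ρ μ μ)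
    {A T : Lp ℂ 2 μ →L[ℂ] Lp ℂ 2 μ} (hA : ∀ g, A g =ᵐ[μ] fun x => c x * g (φ x))
    (hT : ∀ g, T g =ᵐ[μ] fun x => w x * g (ρ x))
    (h1 : ∀ x, c x * w (φ x) = w x * c (ρ x)) (h2 : ∀ x, ρ (φ x) = φ (ρ x)) :
    A * T = T * A := by
  ext1 g
  apply Lp.ext
  filter_upwards [hA (T g), hT (A g), hφ.quasiMeasurePreserving.ae (hT g),
    hρ.quasiMeasurePreserving.ae (hA g)] with x a b c d
  change A (T g) x = T (A g) x
  rw [a, b, c, d, ← mul_assoc, ← mul_assoc, h1, h2]

/-- the parameter group -/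
abbrev Par : Type := (i : ℕ) → ZMod (2 ^ i)

/-- Haar measure on the parameter group -/
noncomputable def nu : Measure Par := Measure.addHaar

instance : IsAddHaarMeasure nu := by unfold nu; infer_instance

/-- the measure of the model space -/
noncomputable abbrev mu : Measure (Par × ℤ) := nu.prod count

/-- digits of a parameter -/
def dig (y : Par) : ℕ → ℕ := fun i => (y i).val

theorem dig_lt (y : Par) (l : ℕ) : dig y l < 2 ^ l := ZMod.val_lt _

theorem measurable_psi (n : ℤ) : Measurable fun y : Par => psi (dig y) n := by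
  simp only [fun y : Par => psi_eq (dig_lt y) (le_refl n.natAbs)]
  refine Finset.measurable_sum _ fun l _ => ?_
  exact (measurable_of_countable fun z : ZMod (2 ^ l) => gam l * lev l z.val n).comp
    (measurable_pi_apply l)

/-- exponent of the weight of an intertwiner -/
noncomputable def expo (τ : Par) (k : ℤ) (p : Par × ℤ) : ℝ :=
  psi (dig (p.1 - τ)) (p.2 - k) - psi (dig p.1) p.2

theorem measurable_expo_left (τ : Par) (k n : ℤ) : Measurable fun x => expo τ k (x, n) :=
  ((measurable_psi (n - k)).comp (measurable_id.sub_const τ)).sub (measurable_psi n)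

theorem measurable_expo (τ : Par) (k : ℤ) : Measurable (expo τ k) :=
  measurable_from_prod_countable_left (measurable_expo_left τ k)

/-- translation of the model space -/
def sh (τ : Par) (k : ℤ) : Par × ℤ → Par × ℤ := Prod.map (· - τ) (· - k)

theorem sh_mp (τ : Par) (k : ℤ) : MeasurePreserving (sh τ k) mu mu :=
  (measurePreserving_sub_right nu τ).prod (measurePreserving_sub_right count k)

theorem exists_T : ∃ T : Lp ℂ 2 mu →L[ℂ] Lp ℂ 2 mu,
    ∀ g, T g =ᵐ[mu] fun p => (Real.exp (expo 0 1 p) : ℂ) * g (sh 0 1 p) := by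
  refine exists_wcomp (C := 1) (c := fun p => (Real.exp (expo 0 1 p) : ℂ))
    (Complex.measurable_ofReal.comp (measurable_expo 0 1).exp) (fun p => ?_) (sh_mp 0 1)
  rw [Complex.norm_real, Real.norm_eq_abs, Real.abs_exp, Real.exp_le_one_iff, expo, sub_zero,
    sub_nonpos]
  exact psi_mono (dig_lt _) (by omega)

theorem exists_A {T : Lp ℂ 2 mu →L[ℂ] Lp ℂ 2 mu}
    (hT : ∀ g, T g =ᵐ[mu] fun p => (Real.exp (expo 0 1 p) : ℂ) * g (sh 0 1 p))
    (τ : Par) (k : ℤ) (C : ℝ) {U : Set Par} (hU : MeasurableSet U)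
    (hC : ∀ x ∈ U, ∀ n, expo τ k (x, n) ≤ C) :
    ∃ A : Lp ℂ 2 mu →L[ℂ] Lp ℂ 2 mu, A * T = T * A ∧ ∀ g, A g =ᵐ[mu] fun p =>
      (U.indicator 1 p.1 * (Real.exp (expo τ k p) : ℂ)) * g (sh τ k p) := by
  obtain ⟨A, hA⟩ := exists_wcomp (μ := mu) (C := Real.exp C)
    (c := fun p => U.indicator 1 p.1 * (Real.exp (expo τ k p) : ℂ))
    (((measurable_one.indicator hU).comp measurable_fst).mul
      (Complex.measurable_ofReal.comp (measurable_expo τ k).exp)) (fun p => by
      by_cases hp : p.1 ∈ U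
      · rw [Set.indicator_of_mem hp, Pi.one_apply, one_mul, Complex.norm_real, Real.norm_eq_abs,
          Real.abs_exp]
        exact Real.exp_le_exp.2 (hC _ hp _)
      · rw [Set.indicator_of_notMem hp, zero_mul, norm_zero]
        exact (Real.exp_pos _).le) (sh_mp τ k)
  refine ⟨A, wcomp_comm (sh_mp τ k) (sh_mp 0 1) hA hT (fun p => ?_) (fun p => ?_), hA⟩
  · have e : expo τ k p + expo 0 1 (sh τ k p) = expo 0 1 p + expo τ k (sh 0 1 p) := by
      simp only [expo, sh, Prod.map_fst, Prod.map_snd, sub_zero]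
      rw [sub_right_comm p.2 1 k]
      ring
    have e1 : (sh 0 1 p).1 = p.1 := by simp [sh]
    rw [e1, mul_assoc, ← Complex.ofReal_mul, ← Real.exp_add, e, Real.exp_add, Complex.ofReal_mul]
    ring
  · simp only [sh, Prod.map, sub_zero, sub_right_comm p.2 1 k]

theorem step1 {T : Lp ℂ 2 mu →L[ℂ] Lp ℂ 2 mu}
    (hT : ∀ g, T g =ᵐ[mu] fun p => (Real.exp (expo 0 1 p) : ℂ) * g (sh 0 1 p))
    {g h : Lp ℂ 2 mu} (H0 : ∀ A, A * T = T * A → inner ℂ h (A g) = 0)
    (τ : Par) (k : ℤ) (C : ℝ) : ∀ᵐ x ∂nu, (∀ n, expo τ k (x, n) ≤ C) →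
      ∑' n, (starRingEnd ℂ) (h (x, n)) * (Real.exp (expo τ k (x, n)) * g (x - τ, n - k)) = 0 := by
  let G : Set Par := {x | ∀ n, expo τ k (x, n) ≤ C}
  have hG : MeasurableSet G := by
    have : G = ⋂ n, {x | expo τ k (x, n) ≤ C} := by ext; simp [G]
    rw [this]
    exact MeasurableSet.iInter fun n =>
      measurableSet_le (measurable_expo_left τ k n) measurable_const
  let Ψ : Par × ℤ → ℂ := fun p => (starRingEnd ℂ) (h p) *
    ((G.indicator 1 p.1 * (Real.exp (expo τ k p) : ℂ)) * g (sh τ k p))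
  have hΨ : Integrable Ψ mu := by
    obtain ⟨A, -, hA⟩ := exists_A hT τ k C hG fun x hx => hx
    refine (L2.integrable_inner (𝕜 := ℂ) h (A g)).congr ?_
    filter_upwards [hA g] with p hp
    rw [hp, RCLike.inner_apply, mul_comm]
  have hz : (fun x => ∫ n, Ψ (x, n) ∂count) =ᵐ[nu] 0 := by
    refine hΨ.integral_prod_left.ae_eq_zero_of_forall_setIntegral_eq_zero fun U hU _ => ?_
    have e := setIntegral_prod (μ := nu) (ν := (count : Measure ℤ)) Ψ (s := U) (t := Set.univ)
      hΨ.integrableOn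
    rw [Measure.restrict_univ] at e
    rw [← e, ← integral_indicator (hU.prod MeasurableSet.univ)]
    obtain ⟨A, hc, hA⟩ := exists_A hT τ k C (hU.inter hG) fun x hx => hx.2
    rw [← H0 A hc, L2.inner_def]
    refine integral_congr_ae ?_
    filter_upwards [hA g] with p hp
    rw [hp, RCLike.inner_apply]
    by_cases hpU : p.1 ∈ U
    · rw [Set.indicator_of_mem (show p ∈ U ×ˢ Set.univ from ⟨hpU, trivial⟩)]
      have : (U ∩ G).indicator (1 : Par → ℂ) p.1 = G.indicator 1 p.1 := by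
        by_cases hpG : p.1 ∈ G
        · rw [Set.indicator_of_mem hpG, Set.indicator_of_mem (show p.1 ∈ U ∩ G from ⟨hpU, hpG⟩)]
        · rw [Set.indicator_of_notMem hpG, Set.indicator_of_notMem fun h => hpG h.2]
      rw [this, mul_comm]
    · rw [Set.indicator_of_notMem fun h => hpU h.1, Set.indicator_of_notMem fun h => hpU h.1]
      simp
  filter_upwards [hz, hΨ.prod_right_ae] with x h1 h2 hx
  rw [integral_countable h2] at h1
  refine Eq.trans (tsum_congr fun n => ?_) h1
  have hx' : x ∈ G := hx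
  simp only [Ψ, Set.indicator_of_mem hx', Pi.one_apply, one_mul, sh, Prod.map]
  simp [Measure.real]

theorem measure_digit (l : ℕ) : nu {x : Par | x l = 0} ≤ nu Set.univ * 2⁻¹ ^ l := by
  classical
  have hm : ∀ t : ZMod (2 ^ l), MeasurableSet ((fun x : Par => x l) ⁻¹' {t}) :=
    fun t => measurable_pi_apply l (measurableSet_singleton t)
  have h1 := sum_measure_preimage_singleton (μ := nu) (Finset.univ : Finset (ZMod (2 ^ l)))
    (f := fun x : Par => x l) (fun t _ => hm t)
  have h2 : ∀ t : ZMod (2 ^ l), nu ((fun x : Par => x l) ⁻¹' {t}) = nu {x : Par | x l = 0} := by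
    intro t
    rw [← measure_preimage_add_right nu (Pi.single l t)]
    congr 1
    ext x
    simp
  simp only [h2, Finset.sum_const, Finset.card_univ, ZMod.card, nsmul_eq_mul, Finset.coe_univ,
    Set.preimage_univ] at h1
  rw [← h1, mul_comm _ (nu _), mul_assoc]
  push_cast
  rw [← mul_pow, ENNReal.mul_inv_cancel (by norm_num) (by norm_num), one_pow, mul_one]

theorem ae_digits : ∀ᵐ x ∂nu, ∀ᶠ l in atTop, (x : Par) l ≠ 0 := by
  refine ae_eventually_notMem (s := fun l => {x : Par | x l = 0}) ?_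
  refine ne_top_of_le_ne_top ?_ (ENNReal.tsum_le_tsum measure_digit)
  rw [ENNReal.tsum_mul_left, ENNReal.tsum_geometric]
  exact ENNReal.mul_ne_top (measure_ne_top _ _) (by simp)

theorem val_sub_one {n : ℕ} [NeZero n] {z : ZMod n} (hz : z ≠ 0) : z.val = (z - 1).val + 1 := by
  have h1 : z.val ≠ 0 := by rwa [Ne, ZMod.val_eq_zero]
  have h2 := ZMod.val_lt z
  have h3 : z - 1 = ((z.val - 1 : ℕ) : ZMod n) := by
    rw [Nat.cast_sub (by omega), ZMod.natCast_zmod_val, Nat.cast_one]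
  rw [h3, ZMod.val_cast_of_lt (by omega)]
  omega

theorem ae_summable (g : Lp ℂ 2 mu) : ∀ᵐ x ∂nu, Summable fun n => ‖g (x, n)‖ ^ 2 := by
  have h := (memLp_two_iff_integrable_sq_norm (Lp.aestronglyMeasurable g)).1 (Lp.memLp g)
  filter_upwards [h.prod_right_ae] with x hx
  simpa using integrable_count_iff.1 hx

theorem step2 {T : Lp ℂ 2 mu →L[ℂ] Lp ℂ 2 mu}
    (hT : ∀ g, T g =ᵐ[mu] fun p => (Real.exp (expo 0 1 p) : ℂ) * g (sh 0 1 p))
    {g h : Lp ℂ 2 mu} (H0 : ∀ A, A * T = T * A → inner ℂ h (A g) = 0)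
    {τ : Par} (hτ : ∀ᶠ l in atTop, τ l = 1) :
    ∀ᵐ x ∂nu, (∃ n, g (x - τ, n) ≠ 0) → ∀ n, h (x, n) = 0 := by
  have h1 : ∀ᵐ x ∂nu, ∀ (k : ℤ) (C : ℕ), (∀ n, expo τ k (x, n) ≤ C) →
      ∑' n, (starRingEnd ℂ) (h (x, n)) * (Real.exp (expo τ k (x, n)) * g (x - τ, n - k)) = 0 :=
    ae_all_iff.2 fun k => ae_all_iff.2 fun C => step1 hT H0 τ k C
  filter_upwards [h1, ae_digits, ae_summable h,
    (measurePreserving_sub_right nu τ).quasiMeasurePreserving.ae (ae_summable g)]
    with x a b c d ⟨p, hp⟩ q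
  obtain ⟨i₀, hi₀⟩ := eventually_atTop.1 (b.and hτ)
  have hi : ∀ l, i₀ ≤ l → dig x l = dig (x - τ) l + 1 := by
    intro l hl
    simp only [dig, Pi.sub_apply, (hi₀ l hl).2]
    exact val_sub_one (hi₀ l hl).1
  by_contra hq
  refine key (dig_lt (x - τ)) (dig_lt x) hi (g := fun n => g (x - τ, n))
    (h := fun n => (starRingEnd ℂ) (h (x, n))) d (by simpa using c) (fun k => ?_) hp
    (q₀ := q) (by simpa using hq)
  obtain ⟨C, hC⟩ := psi_bdd (dig_lt (x - τ)) (dig_lt x) hi k
  exact a k C hC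

theorem eq_zero_of_ae {g : Lp ℂ 2 mu} (h : ∀ᵐ x ∂nu, ∀ n, g (x, n) = 0) : g = 0 := by
  rw [Lp.eq_zero_iff_ae_eq_zero]
  refine (ae_prod_iff_ae_ae (p := fun z => g z = 0) ?_).2 (h.mono fun x hx => .of_forall hx)
  exact (Lp.stronglyMeasurable g).measurable (measurableSet_singleton 0)

/-- finitely supported parameters -/
def FinPar : Set Par := {b | ∀ᶠ l in atTop, b l = 0}

theorem countable_finPar : FinPar.Countable := by
  have : FinPar = ⋃ N : ℕ, {b : Par | ∀ l, N ≤ l → b l = 0} := by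
    ext b
    simp [FinPar, eventually_atTop]
  rw [this]
  refine Set.countable_iUnion fun N => Set.Finite.countable ?_
  refine Set.Finite.of_injOn (f := fun (b : Par) (i : Fin N) => b i) (t := Set.univ)
    (Set.mapsTo_univ _ _) ?_ (Set.toFinite _)
  intro b hb b' hb' e
  funext l
  by_cases hl : l < N
  · exact congrFun e ⟨l, hl⟩
  · rw [hb l (by omega), hb' l (by omega)]

theorem dense_finPar : Dense FinPar := by
  intro y
  refine mem_closure_of_tendsto (b := atTop)
    (f := fun (N : ℕ) (l : ℕ) => if l < N then y l else 0) ?_ ?_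
  · refine tendsto_pi_nhds.2 fun l => tendsto_const_nhds.congr' ?_
    filter_upwards [eventually_gt_atTop l] with N hN
    rw [if_pos hN]
  · refine .of_forall fun N => ?_
    filter_upwards [eventually_ge_atTop N] with l hl
    rw [if_neg (by omega)]

theorem transitive {T : Lp ℂ 2 mu →L[ℂ] Lp ℂ 2 mu}
    (hT : ∀ g, T g =ᵐ[mu] fun p => (Real.exp (expo 0 1 p) : ℂ) * g (sh 0 1 p))
    {g h : Lp ℂ 2 mu} (H0 : ∀ A, A * T = T * A → inner ℂ h (A g) = 0) : g = 0 ∨ h = 0 := by
  let E : Set Par := {y | ∃ n, g (y, n) ≠ 0}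
  have hE : MeasurableSet E := by
    have : E = ⋃ n, (fun y => g (y, n)) ⁻¹' {0}ᶜ := by ext; simp [E]
    rw [this]
    exact MeasurableSet.iUnion fun n =>
      ((Lp.stronglyMeasurable g).measurable.comp measurable_prodMk_right)
        (measurableSet_singleton 0).compl
  let s : Set Par := ⋃ b ∈ FinPar, (fun x => x - (1 + b)) ⁻¹' E
  have hs : MeasurableSet s :=
    MeasurableSet.biUnion countable_finPar fun b _ => (measurable_id.sub_const _) hE
  have hc : EventuallyConst s (ae nu) := by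
    refine aeconst_of_dense_setOfPred_preimage_vadd_eq (M := Par) hs.nullMeasurableSet
      (dense_finPar.mono fun b hb => ?_)
    ext x
    simp only [s, Set.mem_preimage, Set.mem_iUnion, vadd_eq_add, exists_prop]
    constructor
    · rintro ⟨b', hb', hx⟩
      refine ⟨b' - b, ?_, ?_⟩
      · filter_upwards [hb, hb'] with l u v
        simp [u, v]
      · convert hx using 1
        ring
    · rintro ⟨b', hb', hx⟩
      refine ⟨b' + b, ?_, ?_⟩
      · filter_upwards [hb, hb'] with l u v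
        simp [u, v]
      · convert hx using 1
        ring
  rcases eventuallyConst_set.1 hc with hc | hc
  · right
    have h2 : ∀ᵐ x ∂nu, ∀ b ∈ FinPar, (∃ n, g (x - (1 + b), n) ≠ 0) → ∀ n, h (x, n) = 0 := by
      refine (ae_ball_iff countable_finPar).2 fun b hb => step2 hT H0 ?_
      filter_upwards [hb] with l u
      simp [u]
    refine eq_zero_of_ae ?_
    filter_upwards [hc, h2] with x a b
    simp only [s, Set.mem_preimage, Set.mem_iUnion, exists_prop] at a
    obtain ⟨c, hc, hx⟩ := a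
    exact b c hc hx
  · left
    refine eq_zero_of_ae ?_
    filter_upwards [(measurePreserving_add_right nu 1).quasiMeasurePreserving.ae hc] with x a n
    by_contra hn
    apply a
    simp only [s, Set.mem_preimage, Set.mem_iUnion, exists_prop]
    exact ⟨0, .of_forall fun _ => rfl, n, by simpa using hn⟩

theorem nonscalar {T : Lp ℂ 2 mu →L[ℂ] Lp ℂ 2 mu}
    (hT : ∀ g, T g =ᵐ[mu] fun p => (Real.exp (expo 0 1 p) : ℂ) * g (sh 0 1 p)) (c : ℂ) :
    T ≠ c • 1 := by
  intro e
  have hm : MeasurableSet ((Set.univ : Set Par) ×ˢ ({0} : Set ℤ)) :=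
    MeasurableSet.univ.prod (measurableSet_singleton 0)
  have hf : mu ((Set.univ : Set Par) ×ˢ ({0} : Set ℤ)) ≠ ⊤ := by
    rw [prod_prod, count_singleton, mul_one]
    exact measure_ne_top _ _
  let g : Lp ℂ 2 mu := indicatorConstLp 2 hm hf 1
  have hg : g =ᵐ[mu] ((Set.univ : Set Par) ×ˢ ({0} : Set ℤ)).indicator fun _ => (1 : ℂ) :=
    indicatorConstLp_coeFn
  have h1 : ∀ᵐ p ∂mu, p.2 ≠ 1 := by
    have h2 := hT g
    rw [e] at h2
    filter_upwards [h2, Lp.coeFn_smul c g, hg, (sh_mp 0 1).quasiMeasurePreserving.ae hg]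
      with p a b d f hp
    change (c • g) p = _ at a
    rw [b, Pi.smul_apply, d, f, Set.indicator_of_notMem (by simp [hp]),
      Set.indicator_of_mem (by simp [sh, hp])] at a
    simp only [smul_zero, mul_one] at a
    exact (Real.exp_pos _).ne' (by exact_mod_cast a.symm)
  have h3 := ae_ae_of_ae_prod h1
  obtain ⟨x, hx⟩ := h3.exists
  rw [ae_count_iff] at hx
  exact hx 1 rfl

theorem model : ∃ T : Lp ℂ 2 mu →L[ℂ] Lp ℂ 2 mu, (∀ c : ℂ, T ≠ c • 1) ∧
    ∀ g h : Lp ℂ 2 mu, (∀ A, A * T = T * A → inner ℂ h (A g) = 0) → g = 0 ∨ h = 0 := by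
  obtain ⟨T, hT⟩ := exists_T
  exact ⟨T, nonscalar hT, fun g h H0 => transitive hT H0⟩

end Vale.Agent.P131
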