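import Mathlib.Probability.Distributions.Geometric
import Mathlib.Probability.Independence.InfinitePi
import Mathlib.Probability.Independence.Integration
import Mathlib.Probability.Martingale.Convergence

/-! The Bernoulli space `ℕ^ℤ` with geometric marginals: symmetries, local functions, towers. -/

namespace Vale.Agent.P131

open MeasureTheory ProbabilityTheory Filter Topology Finset

abbrev X : Type := ℤ → ℕ

noncomputable def half : unitInterval := ⟨1 / 2, by norm_num, by norm_num⟩

noncomputable def ν : Measure ℕ := geometricMeasure half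

instance : IsProbabilityMeasure ν := by unfold ν; infer_instance

noncomputable def μ : Measure X := Measure.infinitePi (fun _ : ℤ => ν)

instance : IsProbabilityMeasure μ := by unfold μ; infer_instance

theorem half_ne : half ≠ 0 := by
  intro h
  have := congrArg Subtype.val h
  simp [half] at this

theorem ν_singleton (n : ℕ) : ν.real {n} = (1 / 2) ^ (n + 1) := by
  unfold ν
  rw [geometricMeasure_real_singleton half_ne]
  simp only [half]
  rw [pow_succ]; norm_num

theorem ν_Iic (m : ℕ) : ν.real (Set.Iic m) = 1 - (1 / 2) ^ (m + 1) := by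
  induction m with
  | zero =>
    have : Set.Iic (0 : ℕ) = {0} := by ext; simp
    rw [this, ν_singleton]; norm_num
  | succ m ih =>
    have : Set.Iic (m + 1) = Set.Iic m ∪ {m + 1} := by ext; simp; omega
    rw [this, measureReal_union (by simp) (measurableSet_singleton _), ih, ν_singleton]
    ring

theorem ν_Ioi (m : ℕ) : ν.real (Set.Ioi m) = (1 / 2) ^ (m + 1) := by
  rw [← Set.compl_Iic, probReal_compl_eq_one_sub (MeasurableSet.of_discrete), ν_Iic]
  ring

/-- reindexing of the coordinates -/
def rx (π : ℤ ≃ ℤ) : X ≃ᵐ X where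
  toFun x := fun n => x (π n)
  invFun x := fun n => x (π.symm n)
  left_inv x := by funext n; simp
  right_inv x := by funext n; simp
  measurable_toFun := measurable_pi_lambda _ fun _ => measurable_pi_apply _
  measurable_invFun := measurable_pi_lambda _ fun _ => measurable_pi_apply _

@[simp] theorem rx_apply (π : ℤ ≃ ℤ) (x : X) (n : ℤ) : rx π x n = x (π n) := rfl

theorem mp_rx (π : ℤ ≃ ℤ) : MeasurePreserving (rx π) μ μ := by
  refine ⟨(rx π).measurable, ?_⟩
  unfold μ
  refine Measure.eq_infinitePi _ fun s t ht => ?_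
  rw [Measure.map_apply (rx π).measurable (MeasurableSet.pi s.countable_toSet fun i _ => ht i)]
  have : rx π ⁻¹' (Set.pi (s : Set ℤ) t) =
      Set.pi ((s.map π.toEmbedding : Finset ℤ) : Set ℤ) (fun n => t (π.symm n)) := by
    ext x
    simp only [Set.mem_preimage, Set.mem_pi, mem_coe, rx_apply, mem_map_equiv]
    constructor
    · intro h n hn; simpa using h _ hn
    · intro h n hn; simpa using h (π n) (by simpa using hn)
  rw [this, Measure.infinitePi_pi _ (fun i _ => ht _), prod_map]
  simp

/-- the shifts -/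
def sh (i : ℤ) : X ≃ᵐ X := rx (Equiv.addRight i)

@[simp] theorem sh_apply (i : ℤ) (x : X) (n : ℤ) : sh i x n = x (n + i) := rfl

theorem mp_sh (i : ℤ) : MeasurePreserving (sh i) μ μ := mp_rx _

/-- the transposition of the coordinates `0` and `l` -/
def sw (l : ℤ) : X ≃ᵐ X := rx (Equiv.swap 0 l)

theorem sw_apply (l : ℤ) (x : X) (n : ℤ) : sw l x n = x (Equiv.swap 0 l n) := rfl

theorem mp_sw (l : ℤ) : MeasurePreserving (sw l) μ μ := mp_rx _

/-- `f` only depends on the coordinates in `S` -/
def Loc (S : Finset ℤ) (f : X → ℝ) : Prop := ∀ x y : X, (∀ i ∈ S, x i = y i) → f x = f y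

theorem Loc.factor {S : Finset ℤ} {f : X → ℝ} (h : Loc S f) :
    ∃ g : (S → ℕ) → ℝ, Measurable g ∧ f = g ∘ fun x (i : S) => x i := by
  classical
  refine ⟨fun z => f (fun n => if hn : n ∈ S then z ⟨n, hn⟩ else 0), measurable_of_countable _, ?_⟩
  funext x
  exact h _ _ fun i hi => by simp [hi]

theorem Loc.measurable {S : Finset ℤ} {f : X → ℝ} (h : Loc S f) : Measurable f := by
  obtain ⟨g, hg, rfl⟩ := h.factor
  exact hg.comp (measurable_pi_lambda _ fun _ => measurable_pi_apply _)

theorem Loc.integral_mul {S T : Finset ℤ} {f g : X → ℝ} (hf : Loc S f) (hg : Loc T g)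
    (h : Disjoint S T) : ∫ x, f x * g x ∂μ = (∫ x, f x ∂μ) * ∫ x, g x ∂μ := by
  have hi : iIndepFun (fun (i : ℤ) (x : X) => x i) μ :=
    iIndepFun_infinitePi (X := fun _ (n : ℕ) => n) (fun _ => measurable_id)
  have h2 := hi.indepFun_finset S T h (fun i => measurable_pi_apply i)
  have mf := hf.measurable
  have mg := hg.measurable
  obtain ⟨f', hf', rfl⟩ := hf.factor
  obtain ⟨g', hg', rfl⟩ := hg.factor
  exact (h2.comp hf' hg').integral_fun_mul_eq_mul_integral mf.aestronglyMeasurable
    mg.aestronglyMeasurable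

theorem integrable_of_unit {f : X → ℝ} (hf : Measurable f) (h0 : ∀ x, 0 ≤ f x)
    (h1 : ∀ x, f x ≤ 1) : Integrable f μ :=
  Integrable.of_bound hf.aestronglyMeasurable 1
    (Eventually.of_forall fun x => by rw [Real.norm_of_nonneg (h0 x)]; exact h1 x)

/-- approximation by local functions -/
theorem exists_local {a : X → ℝ} (ha : Measurable a) (h0 : ∀ x, 0 ≤ a x) (h1 : ∀ x, a x ≤ 1)
    {η : ℝ} (hη : 0 < η) : ∃ (R : ℕ) (b : X → ℝ), Loc (Icc (-(R : ℤ)) R) b ∧ (∀ x, 0 ≤ b x) ∧
      (∀ x, b x ≤ 1) ∧ ∫ x, |a x - b x| ∂μ ≤ η := by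
  let ℱ : Filtration ℕ (MeasurableSpace.pi : MeasurableSpace X) :=
    { seq := fun n => Filtration.piFinset (X := fun _ : ℤ => ℕ) (Icc (-(n : ℤ)) n)
      mono' := fun n m h => (Filtration.piFinset (X := fun _ : ℤ => ℕ)).mono
        (Icc_subset_Icc (by omega) (by omega))
      le' := fun n => (Filtration.piFinset (X := fun _ : ℤ => ℕ)).le _ }
  have hle : (MeasurableSpace.pi : MeasurableSpace X) ≤ ⨆ n, ℱ n := by
    refine iSup_le fun i => le_iSup_of_le i.natAbs ?_
    refine Measurable.comap_le ?_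
    have hi : i ∈ ((Icc (-(i.natAbs : ℤ)) i.natAbs : Finset ℤ) : Set ℤ) := by
      simp only [coe_Icc, Set.mem_Icc]; omega
    have : (fun x : X => x i) = (fun z : ((Icc (-(i.natAbs : ℤ)) i.natAbs : Finset ℤ) : Set ℤ) → ℕ
        => z ⟨i, hi⟩) ∘ Set.domRestrict _ := rfl
    rw [this]
    exact (measurable_pi_apply _).comp (comap_measurable _)
  have hint := integrable_of_unit ha h0 h1
  have ht := hint.tendsto_eLpNorm_condExp (ℱ := ℱ) (ha.mono hle le_rfl).stronglyMeasurable
  obtain ⟨R, hR⟩ := (ht.eventually (gt_mem_nhds (ENNReal.ofReal_pos.2 hη))).exists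
  have hd : DependsOn (μ[a | ℱ R]) (Icc (-(R : ℤ)) R : Finset ℤ) :=
    StronglyMeasurable.dependsOn_of_piFinset stronglyMeasurable_condExp
  have hloc : Loc (Icc (-(R : ℤ)) R) (fun x => max 0 (min 1 (μ[a | ℱ R] x))) := by
    intro x y h
    show max 0 (min 1 _) = max 0 (min 1 _)
    rw [hd (fun i hi => h i hi)]
  refine ⟨R, _, hloc, fun x => le_max_left _ _, fun x => max_le zero_le_one (min_le_left _ _), ?_⟩
  have hi2 : Integrable (μ[a | ℱ R] - a) μ := integrable_condExp.sub hint
  have h3 : ∫ x, ‖(μ[a | ℱ R] - a) x‖ ∂μ ≤ η := by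
    rw [integral_norm_eq_lintegral_enorm hi2.aestronglyMeasurable, ← eLpNorm_one_eq_lintegral_enorm]
    exact ENNReal.toReal_le_of_le_ofReal hη.le hR.le
  refine le_trans (integral_mono ?_ hi2.norm fun x => ?_) h3
  · exact (hint.sub (integrable_of_unit hloc.measurable (fun x => le_max_left _ _)
      (fun x => max_le zero_le_one (min_le_left _ _)))).abs
  · have := h0 x
    have := h1 x
    simp only [Pi.sub_apply, Real.norm_eq_abs]
    rw [abs_sub_comm (μ[a | ℱ R] x)]
    rcases le_total (μ[a | ℱ R] x) 1 with h | h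
    · rw [min_eq_right h]
      rcases le_total (μ[a | ℱ R] x) 0 with h' | h'
      · rw [max_eq_left h', abs_of_nonneg (by linarith), abs_of_nonneg (by linarith)]; linarith
      · rw [max_eq_right h']
    · rw [min_eq_left h, max_eq_right zero_le_one, abs_of_nonpos (by linarith),
        abs_of_nonpos (by linarith)]
      linarith

/-- Rokhlin tower bound -/
theorem tower {S : Set X} (hS : MeasurableSet S) (I : Finset ℤ) (π : ℤ → ℤ ≃ ℤ)
    (hd : ∀ i ∈ I, ∀ j ∈ I, i < j → ∀ y, rx (π i).symm y ∈ S → rx (π j).symm y ∈ S → False)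
    {h : X → ℝ} (hh : Integrable h μ) (h0 : ∀ x, 0 ≤ h x) :
    ∑ i ∈ I, ∫ x in S, h (rx (π i) x) ∂μ ≤ ∫ x, h x ∂μ := by
  have e : ∀ i, ∫ x in S, h (rx (π i) x) ∂μ = ∫ y in rx (π i).symm ⁻¹' S, h y ∂μ := by
    intro i
    rw [← (mp_rx (π i)).setIntegral_preimage_emb (rx (π i)).measurableEmbedding h
      (rx (π i).symm ⁻¹' S)]
    congr 2
    ext x
    have : rx (π i).symm (rx (π i) x) = x := by funext n; simp
    simp [this]
  simp_rw [e]
  rw [← integral_biUnion_finset I (fun i _ => (rx _).measurable hS) ?_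
    (fun i _ => hh.integrableOn)]
  · exact setIntegral_le_integral hh (Eventually.of_forall h0)
  · intro i hi j hj hij
    refine Set.disjoint_left.2 fun y h1 h2 => ?_
    rcases lt_or_gt_of_ne hij with h | h
    · exact hd i hi j hj h y h1 h2
    · exact hd j hj i hi h y h2 h1

end Vale.Agent.P131
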