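import Vale.Agent.P131.Model

/-! Transfer of the example to an arbitrary separable infinite-dimensional Hilbert space. -/

namespace Vale.Agent.P131

open MeasureTheory

theorem exists_basis_nat (H : Type*) [NormedAddCommGroup H] [InnerProductSpace ℂ H]
    [CompleteSpace H] [TopologicalSpace.SeparableSpace H] (hH : ¬ FiniteDimensional ℂ H) :
    Nonempty (HilbertBasis ℕ ℂ H) := by
  classical
  obtain ⟨w, b, -⟩ := exists_hilbertBasis ℂ H
  have hc : Countable w := by
    refine Pairwise.countable_of_isOpen_disjoint (s := fun i : w => Metric.ball (b i) (1 / 2))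
      (fun i j hij => Metric.ball_disjoint_ball ?_) (fun _ => Metric.isOpen_ball)
      (fun _ => Metric.nonempty_ball.2 (by norm_num))
    have h1 : inner ℂ (b i) (b i - b j) = 1 := by
      rw [inner_sub_right, b.orthonormal.inner_eq_zero hij, sub_zero, inner_self_eq_norm_sq_to_K,
        b.orthonormal.norm_eq_one]
      simp
    have h2 := norm_inner_le_norm (𝕜 := ℂ) (b i) (b i - b j)
    rw [h1, b.orthonormal.norm_eq_one, norm_one, one_mul] at h2
    rw [dist_eq_norm]
    linarith
  have hi : Infinite w := by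
    by_contra hf
    have : Finite w := not_infinite_iff_finite.1 hf
    have := Fintype.ofFinite w
    exact hH (b.toOrthonormalBasis.toBasis.finiteDimensional_of_finite)
  obtain ⟨d⟩ := nonempty_denumerable w
  let e : ℕ ≃ w := (Denumerable.eqv w).symm
  refine ⟨HilbertBasis.mk (v := b ∘ e) (b.orthonormal.comp e e.injective) ?_⟩
  rw [e.surjective.range_comp]
  exact b.dense_span.ge

theorem closed_form {H : Type*} [NormedAddCommGroup H] [InnerProductSpace ℂ H] [CompleteSpace H]
    {T : H →L[ℂ] H} (hT : ∀ g h : H, (∀ A, A * T = T * A → inner ℂ h (A g) = 0) → g = 0 ∨ h = 0)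
    (M : Submodule ℂ H) (hM : IsClosed (M : Set H))
    (hA : ∀ A : H →L[ℂ] H, A * T = T * A → ∀ x ∈ M, A x ∈ M) : M = ⊥ ∨ M = ⊤ := by
  by_cases h0 : M = ⊥
  · exact Or.inl h0
  right
  obtain ⟨g, hg, hg0⟩ := Submodule.exists_mem_ne_zero_of_ne_bot h0
  have : CompleteSpace M := hM.completeSpace_coe
  rw [← Submodule.orthogonal_eq_bot_iff, Submodule.eq_bot_iff]
  intro h hh
  exact (hT g h fun A hc =>
    Submodule.inner_left_of_mem_orthogonal (hA A hc g hg) hh).resolve_left hg0

theorem model_infinite : ¬ FiniteDimensional ℂ (Lp ℂ 2 mu) := by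
  intro hf
  obtain ⟨T, h1, h2⟩ := model
  have : Nontrivial (Lp ℂ 2 mu) := by
    by_contra hn
    have := not_nontrivial_iff_subsingleton.1 hn
    exact h1 0 (ContinuousLinearMap.ext fun _ => Subsingleton.elim _ _)
  obtain ⟨c, hc⟩ := Module.End.exists_eigenvalue (T : Lp ℂ 2 mu →ₗ[ℂ] Lp ℂ 2 mu)
  rcases closed_form h2 (Module.End.eigenspace (T : Lp ℂ 2 mu →ₗ[ℂ] Lp ℂ 2 mu) c)
    (Submodule.closed_of_finiteDimensional _) (fun A hA x hx => by
      rw [Module.End.mem_eigenspace_iff] at hx ⊢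
      have e : A (T x) = T (A x) := congrArg (fun B : Lp ℂ 2 mu →L[ℂ] Lp ℂ 2 mu => B x) hA
      change T x = _ at hx
      change T (A x) = _
      rw [← e, hx, map_smul]) with h | h
  · exact hc h
  · refine h1 c (ContinuousLinearMap.ext fun x => ?_)
    have : x ∈ Module.End.eigenspace (T : Lp ℂ 2 mu →ₗ[ℂ] Lp ℂ 2 mu) c := h ▸ Submodule.mem_top
    exact Module.End.mem_eigenspace_iff.1 this

theorem main (H : Type*) [NormedAddCommGroup H] [InnerProductSpace ℂ H] [CompleteSpace H]
    [TopologicalSpace.SeparableSpace H] (hH : ¬ FiniteDimensional ℂ H) :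
    ∃ T : H →L[ℂ] H, (∀ c : ℂ, T ≠ c • ContinuousLinearMap.id ℂ H) ∧
      ∀ M : Submodule ℂ H, IsClosed (M : Set H) →
        (∀ A : H →L[ℂ] H, A.comp T = T.comp A → ∀ x ∈ M, A x ∈ M) → M = ⊥ ∨ M = ⊤ := by
  have : Fact ((2 : ENNReal) ≠ ⊤) := ⟨by norm_num⟩
  obtain ⟨b⟩ := exists_basis_nat H hH
  obtain ⟨b'⟩ := exists_basis_nat (Lp ℂ 2 mu) model_infinite
  let e : H ≃ₗᵢ[ℂ] Lp ℂ 2 mu := b.repr.trans b'.repr.symm
  let u : H →L[ℂ] Lp ℂ 2 mu := e.toContinuousLinearEquiv
  let v : Lp ℂ 2 mu →L[ℂ] H := e.symm.toContinuousLinearEquiv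
  have huv : ∀ x, u (v x) = x := e.apply_symm_apply
  have hvu : ∀ x, v (u x) = x := e.symm_apply_apply
  obtain ⟨T, h1, h2⟩ := model
  refine ⟨v.comp (T.comp u), fun c hc => h1 c (ContinuousLinearMap.ext fun x => ?_),
    closed_form fun g h H0 => ?_⟩
  · have := congrArg (fun B : H →L[ℂ] H => u (B (v x))) hc
    simpa [huv] using this
  · have := h2 (u g) (u h) fun A hA => by
      have e1 := H0 (v.comp (A.comp u)) (ContinuousLinearMap.ext fun x => by
        have e2 : A (T (u x)) = T (A (u x)) :=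
          congrArg (fun B : Lp ℂ 2 mu →L[ℂ] Lp ℂ 2 mu => B (u x)) hA
        change v (A (u (v (T (u x))))) = v (T (u (v (A (u x)))))
        rw [huv, huv, e2])
      rw [← e1, ← e.inner_map_map]
      change _ = inner ℂ (u h) (u (v (A (u g))))
      rw [huv]
    rcases this with h0 | h0
    · left; rw [← hvu g, h0, map_zero]
    · right; rw [← hvu h, h0, map_zero]

end Vale.Agent.P131
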